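import Vale.Agent.P356H.Sub

namespace Vale.Agent.P356H

open Vale.Agent.P356 Vale.Agent.P356E

/-- one term of the potential -/
noncomputable def levT (D : ℝ) (N : ℕ → ℝ) (i : ℕ) : ℝ :=
  8 / i * (D * (i : ℝ) ^ (-(15 / 16) : ℝ) * N ⌈2 * D * (i : ℝ) ^ (7 / 8 : ℝ)⌉₊ +
    D * (i : ℝ) ^ (-(33 / 32) : ℝ) * N (2 * i))

/-- the potential -/
noncomputable def levF (D σ : ℝ) (p0 : ℕ) (N : ℕ → ℝ) (p : ℕ) : ℝ :=
  σ * N p0 + ∑ i ∈ Finset.Ioc 0 p, levT D N i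

theorem lev_T0 {D : ℝ} (hD : 0 ≤ D) {N : ℕ → ℝ} (hN : ∀ r, 0 ≤ N r) (i : ℕ) : 0 ≤ levT D N i := by
  have h1 := hN ⌈2 * D * (i : ℝ) ^ (7 / 8 : ℝ)⌉₊
  have h2 := hN (2 * i)
  unfold levT
  positivity

theorem lev_base {D σ : ℝ} (hD : 0 ≤ D) {N : ℕ → ℝ} (hN : ∀ r, 0 ≤ N r) (p0 p : ℕ) :
    σ * N p0 ≤ levF D σ p0 N p :=
  le_add_of_nonneg_right (Finset.sum_nonneg fun i _ => lev_T0 hD hN i)

theorem lev_mono {D σ : ℝ} (hD : 0 ≤ D) {N : ℕ → ℝ} (hN : ∀ r, 0 ≤ N r) (p0 : ℕ) {p p' : ℕ}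
    (h : p ≤ p') : levF D σ p0 N p ≤ levF D σ p0 N p' :=
  add_le_add le_rfl (Finset.sum_le_sum_of_subset_of_nonneg (Finset.Ioc_subset_Ioc_right h)
    fun i _ _ => lev_T0 hD hN i)

theorem lev_sum {α : Type} (D σ : ℝ) (p0 p : ℕ) (Q : Finset α) (N : α → ℕ → ℝ) :
    ∑ z ∈ Q, levF D σ p0 (N z) p = levF D σ p0 (fun r => ∑ z ∈ Q, N z r) p := by
  unfold levF levT
  rw [Finset.sum_add_distrib, Finset.sum_comm, Finset.mul_sum]
  congr 1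
  refine Finset.sum_congr rfl fun i _ => ?_
  rw [← Finset.mul_sum, Finset.sum_add_distrib, ← Finset.mul_sum, ← Finset.mul_sum]

theorem lev_step {D σ : ℝ} (hD : 0 ≤ D) {N : ℕ → ℝ} (hN : ∀ r, 0 ≤ N r)
    (hm : ∀ r r', r ≤ r' → N r ≤ N r') (p0 : ℕ) {p r : ℕ} (hp : 1 ≤ p)
    (hr : (r : ℝ) ≤ D * (p : ℝ) ^ (7 / 8 : ℝ)) :
    levF D σ p0 N (7 * p / 8) + D * (p : ℝ) ^ (-(15 / 16) : ℝ) * N r +
      D * (p : ℝ) ^ (-(33 / 32) : ℝ) * N p ≤ levF D σ p0 N p := by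
  obtain ⟨X, hX⟩ : ∃ X, X = D * (p : ℝ) ^ (-(15 / 16) : ℝ) * N r +
      D * (p : ℝ) ^ (-(33 / 32) : ℝ) * N p := ⟨_, rfl⟩
  have pp : (0 : ℝ) < p := by exact_mod_cast hp
  have X0 : 0 ≤ X := by
    have h1 := hN r
    have h2 := hN p
    rw [hX]
    positivity
  have key : ∀ i ∈ Finset.Ioc (7 * p / 8) p, 8 / p * X ≤ levT D N i := fun i hi => by
    rw [Finset.mem_Ioc] at hi
    have i0 : (0 : ℝ) < i := by exact_mod_cast (by omega : 0 < i)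
    have ip : (i : ℝ) ≤ p := by exact_mod_cast hi.2
    have pi : (p : ℝ) ≤ 2 * i := by exact_mod_cast (by omega : p ≤ 2 * i)
    have a1 : (p : ℝ) ^ (7 / 8 : ℝ) ≤ 2 * (i : ℝ) ^ (7 / 8 : ℝ) := by
      refine (Real.rpow_le_rpow pp.le pi (by norm_num)).trans ?_
      rw [Real.mul_rpow (by norm_num) i0.le]
      refine mul_le_mul_of_nonneg_right ?_ (by positivity)
      simpa using Real.rpow_le_rpow_of_exponent_le (x := 2) (y := 7 / 8) (z := 1) (by norm_num)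
        (by norm_num)
    have a2 : r ≤ ⌈2 * D * (i : ℝ) ^ (7 / 8 : ℝ)⌉₊ := by
      have := mul_le_mul_of_nonneg_left a1 hD
      have h := Nat.le_ceil (2 * D * (i : ℝ) ^ (7 / 8 : ℝ))
      exact_mod_cast (by linarith : (r : ℝ) ≤ (⌈2 * D * (i : ℝ) ^ (7 / 8 : ℝ)⌉₊ : ℕ))
    have a3 : (p : ℝ) ^ (-(15 / 16) : ℝ) ≤ (i : ℝ) ^ (-(15 / 16) : ℝ) :=
      Real.rpow_le_rpow_of_nonpos i0 ip (by norm_num)
    have a4 : (p : ℝ) ^ (-(33 / 32) : ℝ) ≤ (i : ℝ) ^ (-(33 / 32) : ℝ) :=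
      Real.rpow_le_rpow_of_nonpos i0 ip (by norm_num)
    have a5 := hm _ _ a2
    have a6 := hm p (2 * i) (by omega)
    have h1 := hN r
    have h2 := hN p
    rw [hX]
    unfold levT
    gcongr
  have h1 := Finset.card_nsmul_le_sum _ _ _ key
  rw [Nat.card_Ioc, nsmul_eq_mul] at h1
  have h2 : (p : ℝ) ≤ 8 * (p - 7 * p / 8 : ℕ) := by
    exact_mod_cast (by omega : p ≤ 8 * (p - 7 * p / 8))
  have h3 : X ≤ (p - 7 * p / 8 : ℕ) * (8 / p * X) := by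
    rw [← mul_assoc]
    refine le_mul_of_one_le_left X0 ?_
    rw [← mul_div_assoc, le_div_iff₀ pp]
    linarith
  have h4 := Finset.sum_Ioc_consecutive (levT D N) (Nat.zero_le (7 * p / 8))
    (by omega : 7 * p / 8 ≤ p)
  unfold levF
  linarith

theorem lev_T1 {D b : ℝ} (hD : 1 ≤ D) (hb : 0 ≤ b) {N : ℕ → ℝ}
    (hN : ∀ r : ℕ, 1 ≤ r → N r ≤ 50 * r * (b + r)) {i p : ℕ} (hi : 1 ≤ i) (hp : i ≤ p) :
    levT D N i ≤ 5200 * D ^ 3 * (b + p) * (i : ℝ) ^ (-(33 / 32) : ℝ) := by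
  have i1 : (1 : ℝ) ≤ i := by exact_mod_cast hi
  have i0 : (0 : ℝ) < i := by linarith
  have ip : (i : ℝ) ≤ p := by exact_mod_cast hp
  have D0 : 0 < D := by linarith
  obtain ⟨e, he⟩ : ∃ e, e = (i : ℝ) ^ (7 / 8 : ℝ) := ⟨_, rfl⟩
  have e1 : 1 ≤ e := he ▸ Real.one_le_rpow i1 (by norm_num)
  have ei : e ≤ i := by
    simpa [he] using Real.rpow_le_rpow_of_exponent_le (y := 7 / 8) (z := 1) i1 (by norm_num)
  have De : 1 ≤ D * e := one_le_mul_of_one_le_of_one_le hD e1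
  obtain ⟨ρ, hρ⟩ : ∃ ρ : ℕ, ρ = ⌈2 * D * e⌉₊ := ⟨_, rfl⟩
  have r1 : 2 * D * e ≤ ρ := hρ ▸ Nat.le_ceil _
  have r2 : (ρ : ℝ) < 2 * D * e + 1 := hρ ▸ Nat.ceil_lt_add_one (by positivity)
  have r3 : (ρ : ℝ) ≤ 3 * (D * e) := by linarith
  have r4 : b + ρ ≤ 3 * D * (b + p) := by
    have : D * e ≤ D * p := mul_le_mul_of_nonneg_left (ei.trans ip) D0.le
    have : b ≤ D * b := le_mul_of_one_le_left hb hD
    linarith
  have n1 : N ρ ≤ 50 * (3 * (D * e)) * (3 * D * (b + p)) := by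
    refine (hN ρ (by exact_mod_cast (by linarith : (1 : ℝ) ≤ ρ))).trans ?_
    gcongr
  have n2 : N (2 * i) ≤ 50 * (2 * i) * (2 * (b + p)) := by
    refine (hN _ (by omega)).trans ?_
    push_cast
    gcongr
    linarith
  obtain ⟨s, hs⟩ : ∃ s, s = (i : ℝ) ^ (-(33 / 32) : ℝ) := ⟨_, rfl⟩
  obtain ⟨v, hv⟩ : ∃ v, v = (i : ℝ) ^ (-(15 / 16) : ℝ) := ⟨_, rfl⟩
  have s0 : 0 ≤ s := by rw [hs]; positivity
  have v0 : 0 ≤ v := by rw [hv]; positivity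
  have ve : v * e ≤ s * i := by
    rw [hv, he, hs, ← Real.rpow_add i0, ← Real.rpow_add_one i0.ne']
    exact Real.rpow_le_rpow_of_exponent_le i1 (by norm_num)
  have bp : 0 ≤ b + p := by positivity
  have D3 : D ≤ D ^ 3 := le_self_pow₀ hD (by norm_num)
  unfold levT
  rw [← he, ← hρ, ← hs, ← hv, div_mul_eq_mul_div, div_le_iff₀ i0]
  calc 8 * (D * v * N ρ + D * s * N (2 * i))
      ≤ 8 * (D * v * (50 * (3 * (D * e)) * (3 * D * (b + p))) +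
        D * s * (50 * (2 * i) * (2 * (b + p)))) := by gcongr
    _ = 3600 * D ^ 3 * (b + p) * (v * e) + 1600 * D * (b + p) * (s * i) := by ring
    _ ≤ 3600 * D ^ 3 * (b + p) * (s * i) + 1600 * D ^ 3 * (b + p) * (s * i) := by gcongr
    _ = _ := by ring

theorem lev_bound {D σ b : ℝ} (hD : 1 ≤ D) (hσ : 0 ≤ σ) (hb : 0 ≤ b) {N : ℕ → ℝ}
    (hN : ∀ r : ℕ, 1 ≤ r → N r ≤ 50 * r * (b + r)) {p0 : ℕ} (hp0 : 1 ≤ p0) (p : ℕ) :
    levF D σ p0 N p ≤ (50 * σ * (p0 : ℝ) ^ 2 +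
      5200 * D ^ 3 * ∑' i : ℕ, (i : ℝ) ^ (-(33 / 32) : ℝ)) * (b + p + 1) := by
  have hs : Summable fun i : ℕ => (i : ℝ) ^ (-(33 / 32) : ℝ) :=
    Real.summable_nat_rpow.2 (by norm_num)
  obtain ⟨Z, hZ⟩ : ∃ Z, Z = ∑' i : ℕ, (i : ℝ) ^ (-(33 / 32) : ℝ) := ⟨_, rfl⟩
  have Z0 : 0 ≤ Z := hZ ▸ tsum_nonneg fun i => by positivity
  have h1 : ∑ i ∈ Finset.Ioc 0 p, (i : ℝ) ^ (-(33 / 32) : ℝ) ≤ Z :=
    hZ ▸ hs.sum_le_tsum _ fun i _ => by positivity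
  have D0 : 0 ≤ D := by linarith
  have h2 : ∑ i ∈ Finset.Ioc 0 p, levT D N i ≤ 5200 * D ^ 3 * Z * (b + p + 1) := by
    calc _ ≤ ∑ i ∈ Finset.Ioc 0 p, 5200 * D ^ 3 * (b + p) * (i : ℝ) ^ (-(33 / 32) : ℝ) :=
          Finset.sum_le_sum fun i hi =>
            lev_T1 hD hb hN (Finset.mem_Ioc.1 hi).1 (Finset.mem_Ioc.1 hi).2
      _ ≤ 5200 * D ^ 3 * (b + p + 1) * Z := by
          rw [← Finset.mul_sum]
          exact mul_le_mul (mul_le_mul_of_nonneg_left (by linarith) (by positivity)) h1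
            (Finset.sum_nonneg fun i _ => by positivity) (by positivity)
      _ = _ := by ring
  have q1 : (1 : ℝ) ≤ p0 := by exact_mod_cast hp0
  have h3 : σ * N p0 ≤ 50 * σ * (p0 : ℝ) ^ 2 * (b + p + 1) := by
    have a1 : b + p0 ≤ p0 * (b + p + 1) := by
      have : b ≤ p0 * b := le_mul_of_one_le_left hb q1
      have : (0 : ℝ) ≤ p0 * p := by positivity
      linarith
    calc σ * N p0 ≤ σ * (50 * p0 * (p0 * (b + p + 1))) :=
          mul_le_mul_of_nonneg_left ((hN p0 hp0).trans (by gcongr)) hσ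
      _ = _ := by ring
  unfold levF
  rw [← hZ]
  linarith

open Classical in
/-- Potential `Φ p z = σ 1[z ∈ nr p0] + ∑ i ∈ Icc 1 p, (16 / i) * (D i ^ (-15/16) 1[z ∈ nr (ρ i)] +
D i ^ (-33/32) 1[z ∈ nr (2 i)])` with `ρ i = ⌈2 D i ^ (7/8)⌉₊`. Strong induction on `p`: all admissible
boxes of semiperimeter at most `p` satisfy `m Q ≤ ∑ z ∈ Q, Φ p z` (WLOG `16 ≤ p0`; in the step use
`φ = Φ (7 p / 8)`; there are at least `p / 16` values `i` in `(7 p / 8, p]`, each with `16 / i ≥ 16 / p`).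
Then `∑ z, Φ p z ≤ C (b + p)` by the area bound and `Real.summable_nat_rpow`. -/
theorem levels {D σ : ℝ} (hD : 1 ≤ D) (hσ : 0 ≤ σ) {p0 : ℕ} (hp0 : 1 ≤ p0) : ∃ C : ℝ, 0 ≤ C ∧
    ∀ (L : ℕ) (m : Finset (St L) → ℝ) (nr : ℕ → Finset (St L)) (b : ℝ), 0 ≤ b →
      (∀ r r', r ≤ r' → nr r ⊆ nr r') → (∀ r : ℕ, 1 ≤ r → ((nr r).card : ℝ) ≤ 50 * r * (b + r)) →
      (∀ (x1 x2 y1 y2 p : ℕ), Adm L x1 x2 y1 y2 → (x2 - x1) + (y2 - y1) ≤ p →
        m (box L x1 x2 y1 y2) ≤ σ * (box L x1 x2 y1 y2 ∩ nr p).card) →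
      StepG L m nr D p0 → ∀ x1 x2 y1 y2 : ℕ, Adm L x1 x2 y1 y2 →
        m (box L x1 x2 y1 y2) ≤ C * (b + ((x2 - x1) + (y2 - y1) : ℕ) + 1) := by
  have D0 : 0 ≤ D := by linarith
  refine ⟨50 * σ * (p0 : ℝ) ^ 2 + 5200 * D ^ 3 * ∑' i : ℕ, (i : ℝ) ^ (-(33 / 32) : ℝ),
    add_nonneg (by positivity) (mul_nonneg (by positivity) (tsum_nonneg fun i => by positivity)),
    fun L m nr b hb hmono harea hbase hstep => ?_⟩
  have hsum : ∀ (Q : Finset (St L)) (p : ℕ),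
      ∑ z ∈ Q, levF D σ p0 (fun r => if z ∈ nr r then 1 else 0) p =
        levF D σ p0 (fun r => ((Q ∩ nr r).card : ℝ)) p := fun Q p => by
    rw [lev_sum]
    congr 1
    funext r
    rw [Finset.sum_ite_mem]
    simp
  have key : ∀ p x1 x2 y1 y2 : ℕ, Adm L x1 x2 y1 y2 → (x2 - x1) + (y2 - y1) = p →
      m (box L x1 x2 y1 y2) ≤ levF D σ p0 (fun r => ((box L x1 x2 y1 y2 ∩ nr r).card : ℝ)) p := by
    intro p
    induction p using Nat.strong_induction_on with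
    | _ p ih =>
      intro x1 x2 y1 y2 hA hp
      by_cases hpp : p0 ≤ p
      · obtain ⟨r, -, hr, h⟩ := hstep x1 x2 y1 y2 p
          (fun z => levF D σ p0 (fun r => if z ∈ nr r then 1 else 0) (7 * p / 8)) hA hp hpp
          (fun z => (mul_nonneg hσ (by positivity)).trans (lev_base D0 (fun r => by positivity) _ _))
          (fun a1 a2 b1 b2 hB hs => by
            rw [hsum]
            exact (ih _ (by omega) a1 a2 b1 b2 hB rfl).trans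
              (lev_mono D0 (fun r => by positivity) _ (by omega)))
        rw [hsum] at h
        exact h.trans (lev_step D0 (N := fun r => ((box L x1 x2 y1 y2 ∩ nr r).card : ℝ))
          (fun r => by positivity) (fun r r' hr => by
            exact_mod_cast Finset.card_le_card (Finset.inter_subset_inter_left (hmono r r' hr)))
          p0 (by omega) hr)
      · exact (hbase x1 x2 y1 y2 p0 hA (by omega)).trans
          (lev_base D0 (N := fun r => ((box L x1 x2 y1 y2 ∩ nr r).card : ℝ))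
            (fun r => by positivity) _ _)
  intro x1 x2 y1 y2 hA
  refine (key _ x1 x2 y1 y2 hA rfl).trans (lev_bound hD hσ hb (fun r hr => ?_) hp0 _)
  exact le_trans (by exact_mod_cast Finset.card_le_card Finset.inter_subset_right) (harea r hr)

end Vale.Agent.P356H
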