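import Vale.Agent.P356H.Ring

namespace Vale.Agent.P356H

open Vale.Agent.P356 Vale.Agent.P356E

theorem near_sum {L : ℕ} (A : Finset (St L)) (R : ℕ) :
    ∑ z, eS A (geoSq L R z) ≤ (2 * R + 1) ^ 2 * eS A Finset.univ := by
  have e : ∀ B : Finset (St L), eS A B = ∑ e ∈ Finset.univ.filter (fun e : St L × St L =>
      e.1 ∈ Finset.univ ∧ dist1 e.1 e.2 = 1 ∧ (e.1 ∈ A ↔ e.2 ∉ A)), if e.1 ∈ B then 1 else 0 := by
    intro B
    rw [← Finset.card_filter, Finset.filter_filter, eS]
    refine congrArg _ (Finset.filter_congr fun e _ => ?_)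
    simp only [Finset.mem_univ, true_and]
    tauto
  rw [Finset.sum_congr rfl fun z _ => e (geoSq L R z), Finset.sum_comm, mul_comm]
  refine Finset.sum_le_card_nsmul _ _ _ fun x _ => ?_
  rw [← Finset.card_filter]
  refine le_trans (Finset.card_le_card fun z hz => ?_) (geoSq_card L R x.1)
  exact mem_sq_symm.1 (Finset.mem_filter.1 hz).2

/-- If `L < 4 r` count all sites. If a colour lies in some `geoSq L (2 r) z0` then
`nearB A r ⊆ geoSq L (3 r) z0`. Otherwise `ring_cnt` with `k = r` and double counting: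
`∑ z, eS A (geoSq L (2 r) z) ≤ (4 r + 1) ^ 2 * eS A univ` (`mem_sq_symm`, `geoSq_card`), `eS_univ`. -/
theorem near_card {L : ℕ} {A : Finset (St L)} (hA : Uns A) {r : ℕ} (hr : 1 ≤ r) :
    ((nearB A r).card : ℝ) ≤ 50 * r * (bdry A + r) := by
  suffices h : (nearB A r).card ≤ 50 * r * (bdry A + r) by exact_mod_cast h
  by_cases hL : L < 4 * r
  · have h1 := Finset.card_le_univ (nearB A r)
    rw [Fintype.card_prod, Fintype.card_fin] at h1
    nlinarith [Nat.mul_le_mul hL.le hL.le, Nat.zero_le (r * bdry A)]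
  by_cases h : ∃ z0, A ⊆ geoSq L (r + r) z0 ∨ Aᶜ ⊆ geoSq L (r + r) z0
  · obtain ⟨z0, h⟩ := h
    have h1 : nearB A r ⊆ geoSq L (3 * r) z0 := fun z hz => by
      rw [mem_nearB, Mono, not_or, Finset.not_subset, Finset.not_subset] at hz
      obtain ⟨⟨a, ha, ha'⟩, b, hb, hb'⟩ := hz
      rw [Finset.mem_compl, not_not] at hb'
      rcases h with h | h
      · have := h hb'
        rw [mem_sq] at this hb ⊢
        omega
      · have := h (Finset.mem_compl.2 ha')
        rw [mem_sq] at this ha ⊢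
        omega
    have h2 := (Finset.card_le_card h1).trans (geoSq_card _ _ _)
    nlinarith [Nat.zero_le (r * bdry A)]
  · have h1 : (nearB A r).card * r ≤ ∑ z, eS A (geoSq L (r + r) z) := by
      refine le_trans (Finset.card_nsmul_le_sum (nearB A r) _ r fun z hz => ?_)
        (Finset.sum_le_sum_of_subset (Finset.subset_univ _))
      exact (ring_cnt hA z (mem_nearB.1 hz) r (by omega)).resolve_right fun h' => h ⟨z, h'⟩
    have h2 := near_sum A (r + r)
    have h3 := eS_univ A
    have h4 : (2 * (r + r) + 1) ^ 2 ≤ 25 * r ^ 2 := by nlinarith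
    have h5 : (nearB A r).card * r ≤ 50 * r * bdry A * r :=
      calc _ ≤ _ := h1.trans h2
        _ ≤ 25 * r ^ 2 * (2 * bdry A) := Nat.mul_le_mul h4 h3
        _ = _ := by ring
    have h6 := Nat.le_of_mul_le_mul_right h5 hr
    nlinarith [Nat.zero_le (r * r)]

end Vale.Agent.P356H
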