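import Vale.Agent.P356H.Sub

namespace Vale.Agent.P356H

open Vale.Agent.P356 Vale.Agent.P356E

/-- `fin_edge` -/
theorem bdry_pos {L : ℕ} {B : Finset (St L)} (h1 : B ≠ ∅) (h2 : B ≠ Finset.univ) : 0 < bdry B := by
  obtain ⟨x, hx⟩ := Finset.nonempty_iff_ne_empty.2 h1
  obtain ⟨y, hy⟩ := not_forall.1 fun h => h2 (Finset.eq_univ_of_forall h)
  obtain ⟨u, v, hu, hv, h3, -⟩ := fin_edge B y hy _ x hx rfl
  exact Finset.card_pos.2 ⟨(u, v), Finset.mem_filter.2 ⟨Finset.mem_univ _, hu, hv, h3⟩⟩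

theorem bdry_split {L : ℕ} {B B1 : Finset (St L)} (h1 : B1 ⊆ B)
    (h2 : ∀ u ∈ B1, ∀ v ∈ B, dist1 u v = 1 → v ∈ B1) : bdry B = bdry B1 + bdry (B \ B1) := by
  unfold bdry
  rw [← Finset.card_union_of_disjoint, ← Finset.filter_or]
  · refine congrArg _ (Finset.filter_congr fun e _ => ?_)
    have a1 := @h1 e.1
    have a2 := @h1 e.2
    have a3 := fun a b => h2 e.1 a e.2 b
    have a4 := fun a b => h2 e.2 a e.1 b
    rw [fin_symm] at a4
    simp only [Finset.mem_sdiff]
    tauto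
  · exact Finset.disjoint_filter.2 fun e _ he he' => (Finset.mem_sdiff.1 he'.1).2 he.1

/-- strong induction on `bdry A`; `bdry_compl`, `SS.union_le` -/
theorem uns_red {L : ℕ} {S : Finset (St L) → ℝ} (hS : SS S) {C : ℝ}
    (h : ∀ A, Uns A → S A ≤ C * bdry A) (A : Finset (St L)) : S A ≤ C * bdry A := by
  induction hn : bdry A using Nat.strong_induction_on generalizing A with
  | _ n ih =>
    subst hn
    by_cases hA : Uns A
    · exact h A hA
    simp only [Uns, not_forall, not_or] at hA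
    obtain ⟨B, hB, B1, h1, h2, h3, h4⟩ := hA
    have e1 : S B = S A := by
      rcases hB with rfl | rfl
      exacts [rfl, hS.compl A]
    have e2 : bdry B = bdry A := by
      rcases hB with rfl | rfl
      exacts [rfl, bdry_compl A]
    have e3 := bdry_split h1 h2
    have p1 : 0 < bdry B1 := bdry_pos h3 fun e => h4 (h1.antisymm (e ▸ Finset.subset_univ B))
    have p2 : 0 < bdry (B \ B1) := by
      refine bdry_pos (fun e => h4 (h1.antisymm (Finset.sdiff_eq_empty_iff_subset.1 e))) fun e => ?_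
      obtain ⟨x, hx⟩ := Finset.nonempty_iff_ne_empty.2 h3
      exact (Finset.mem_sdiff.1 (e ▸ Finset.mem_univ x : x ∈ B \ B1)).2 hx
    have i1 := ih _ (by omega) B1 rfl
    have i2 := ih _ (by omega) (B \ B1) rfl
    have i3 := hS.union_le B1 (B \ B1)
    rw [Finset.union_sdiff_of_subset h1, e1] at i3
    rw [← e2, e3]
    push_cast
    linarith

theorem uns_int {L : ℕ} {B : Finset (St L)}
    (hB : ∀ B1, B1 ⊆ B → (∀ u ∈ B1, ∀ v ∈ B, dist1 u v = 1 → v ∈ B1) → B1 = ∅ ∨ B1 = B)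
    (f : St L → Fin L) (hf : ∀ u v, dist1 u v = 1 → (f v).val ≤ (f u).val + 1) {I : Finset (Fin L)}
    {n : ℕ} (hI : I.card ≤ n) (h : ∀ z ∈ B, f z ∈ I) :
    ∃ x, ∀ z ∈ B, x ≤ (f z).val ∧ (f z).val < x + n := by
  rcases B.eq_empty_or_nonempty with rfl | hne
  · exact ⟨0, fun z hz => absurd hz (Finset.notMem_empty z)⟩
  obtain ⟨z0, hz0, hmin⟩ := B.exists_min_image (fun z => (f z).val) hne
  refine ⟨(f z0).val, fun z hz => ⟨hmin z hz, ?_⟩⟩
  have h0 := hmin z hz
  have h1 : (f z).val + 1 - (f z0).val ≤ I.card := by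
    refine iso_card (a := (f z0).val) (b := (f z).val + 1) I (by omega) (f z).2 fun j h1 h2 => ?_
    by_contra hj
    have h3 : ∀ v ∈ B, (f v).val ≠ j.val := fun v hv e => hj (Fin.ext e ▸ h v hv)
    rcases hB (B.filter fun v => (f v).val < j.val) (Finset.filter_subset _ _) (fun u hu v hv e => by
      have := hf u v e
      have := h3 v hv
      have := (Finset.mem_filter.1 hu).2
      exact Finset.mem_filter.2 ⟨hv, by omega⟩) with h4 | h4
    · have := h3 z0 hz0
      exact Finset.notMem_empty z0 (h4 ▸ Finset.mem_filter.2 ⟨hz0, by omega⟩)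
    · have := h3 z hz
      have := (Finset.mem_filter.1 (h4.symm ▸ hz :
        z ∈ B.filter fun v => (f v).val < j.val)).2
      omega
  omega

/-- If `bdry A < L` there are a one colour row and a one colour column (`fin_row`, `fin_col`), of the
same colour; `B` is the other colour. Every row and column meeting `B` is mixed, so there are at most
`bdry A` of them, and they form an interval (cut `B` at a row without points of `B`, `Uns`). -/
theorem top_box {L : ℕ} {A : Finset (St L)} (hA : Uns A) : L ≤ bdry A ∨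
    ∃ (B : Finset (St L)) (x1 y1 : ℕ), (B = A ∨ B = Aᶜ) ∧
      B ⊆ box L x1 (x1 + bdry A) y1 (y1 + bdry A) := by
  have hI : ((finE A).image fun e => e.1.1).card ≤ bdry A := Finset.card_image_le
  have hJ : ((finE A).image fun e => e.1.2).card ≤ bdry A := Finset.card_image_le
  have hP : ∀ B : Finset (St L), (B = A ∨ B = Aᶜ) → (∀ z ∈ B, z.1 ∈ (finE A).image (fun e => e.1.1) ∧
      z.2 ∈ (finE A).image (fun e => e.1.2)) → ∃ (B : Finset (St L)) (x1 y1 : ℕ),
      (B = A ∨ B = Aᶜ) ∧ B ⊆ box L x1 (x1 + bdry A) y1 (y1 + bdry A) := fun B hB h => by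
    obtain ⟨x, hx⟩ := uns_int (hA B hB) Prod.fst (fun u v e => by unfold dist1 at e; omega) hI
      fun z hz => (h z hz).1
    obtain ⟨y, hy⟩ := uns_int (hA B hB) Prod.snd (fun u v e => by unfold dist1 at e; omega) hJ
      fun z hz => (h z hz).2
    exact ⟨B, x, y, hB, fun z hz => geo_mem.2 ⟨(hx z hz).1, (hx z hz).2, hy z hz⟩⟩
  have hL : ∀ S : Finset (Fin L), (∀ i, i ∈ S) → S.card ≤ bdry A → L ≤ bdry A := fun S h1 h2 => by
    rwa [Finset.eq_univ_of_forall h1, Finset.card_univ, Fintype.card_fin] at h2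
  by_cases h1 : (∀ i, ∃ j, (i, j) ∉ A) ∧ ∀ j, ∃ i, (i, j) ∉ A
  · refine Or.inr (hP A (Or.inl rfl) fun z hz => ?_)
    obtain ⟨j, hj⟩ := h1.1 z.1
    obtain ⟨i, hi⟩ := h1.2 z.2
    exact ⟨fin_row A (j := z.2) hz hj, fin_col A (i := z.1) hz hi⟩
  by_cases h2 : (∀ i, ∃ j, (i, j) ∈ A) ∧ ∀ j, ∃ i, (i, j) ∈ A
  · refine Or.inr (hP Aᶜ (Or.inr rfl) fun z hz => ?_)
    obtain ⟨j, hj⟩ := h2.1 z.1
    obtain ⟨i, hi⟩ := h2.2 z.2
    rw [Finset.mem_compl] at hz
    exact ⟨fin_row A (j' := z.2) hj hz, fin_col A (i' := z.1) hi hz⟩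
  left
  simp only [not_and_or, not_forall, not_exists, not_not] at h1 h2
  rcases h1 with ⟨i, hi⟩ | ⟨j, hj⟩ <;> rcases h2 with ⟨i', hi'⟩ | ⟨j', hj'⟩
  · exact hL _ (fun j => fin_col A (hi j) (hi' j)) hJ
  · exact absurd (hi j') (hj' i)
  · exact absurd (hj i') (hi' j)
  · exact hL _ (fun i => fin_row A (hj i) (hj' i)) hI

end Vale.Agent.P356H
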