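import Vale.Agent.P356H.StepN
import Vale.Agent.P356H.Lev
import Vale.Agent.P356H.Near
import Vale.Agent.P356H.Uns

namespace Vale.Agent.P356H

open Vale.Agent.P356 Vale.Agent.P356E

lemma comb_base {L : ℕ} {S : Finset (St L) → ℝ} {C : ℝ} (hC : 1 ≤ C) (hS : SS S)
    (hB : HB L S C) (A : Finset (St L)) {x1 x2 y1 y2 p : ℕ} (h : (x2 - x1) + (y2 - y1) ≤ p) :
    mm S A (box L x1 x2 y1 y2) ≤ 2 * C * (box L x1 x2 y1 y2 ∩ nearB A p).card := by
  by_cases hm : Mono A (box L x1 x2 y1 y2)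
  · rw [mm_mono hS hm]
    positivity
  · rw [Finset.inter_eq_left.2 (box_near A (r := p) (by omega) (by omega) hm)]
    have h1 : ∀ z, S {z} ≤ C := fun z => by
      have h2 := hB 1 z.1 (z.1 + 1) z.2 (z.2 + 1) le_rfl le_rfl le_rfl
      have e : box L z.1 (z.1 + 1) z.2 (z.2 + 1) = {z} := by
        ext y
        rw [geo_mem, Finset.mem_singleton, Prod.ext_iff, Fin.ext_iff, Fin.ext_iff]
        omega
      simpa [e] using h2
    have h2 := mm_le hS A (box L x1 x2 y1 y2)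
    have h3 := hS.card_le h1 (A ∩ box L x1 x2 y1 y2)
    have h4 : ((A ∩ box L x1 x2 y1 y2).card : ℝ) ≤ (box L x1 x2 y1 y2).card :=
      Nat.cast_le.2 (Finset.card_le_card Finset.inter_subset_right)
    nlinarith

lemma comb_pow {b : ℝ} (hb : 1 ≤ b) {a : ℝ} (ha : a ≤ 1) : b ^ a ≤ b := by
  simpa using Real.rpow_le_rpow_of_exponent_le hb ha

/-- `uns_red`; let `b = bdry A`, for `b = 0` use `bdry_pos`. `levels` with `σ = 2 C`
(`mm_mono`, `box_near`, `mm_le`, `SS.card_le`; a site is a box of side one), `stepG`, `near_card`.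
`top_box`: if `L ≤ b` take `Q = box L 0 L 0 L = univ`, `mm S A univ = 2 * S A`. Otherwise
`W = ⌈C b ^ (3/4)⌉₊ ≤ 2 C b`, `l0 = min L (b + 2 W)`, `Q` = the square of side `l0` with corner
`min (x1 - W) (L - l0)`, `min (y1 - W) (L - l0)`; it contains the collar; `mm_top`, `bf_mono`,
`mm_compl`. -/
theorem comb {C : ℝ} (hC : 1 ≤ C) : ∃ C' : ℝ, ∀ (L : ℕ) (S : Finset (St L) → ℝ), SS S →
    HB L S C → HM L S C → ∀ A : Finset (St L), S A ≤ C' * bdry A := by
  obtain ⟨D, p0, hD, hp0, hst⟩ := stepG hC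
  obtain ⟨C1, hC1, hlev⟩ := levels (σ := 2 * C) hD (by positivity) hp0
  refine ⟨6 * C * C1 + C, fun L S hS hB hM => uns_red hS fun A hA => ?_⟩
  rcases Nat.eq_zero_or_pos (bdry A) with h0 | hpos
  · have h1 : S A = 0 := by
      by_cases h1 : A = ∅
      · rw [h1, hS.empty]
      by_cases h2 : A = Finset.univ
      · rw [h2, hS.univ]
      exact absurd (bdry_pos h1 h2) (by omega)
    rw [h1, h0]
    simp
  have hb : (1 : ℝ) ≤ bdry A := Nat.one_le_cast.2 hpos
  have key := hlev L (mm S A) (nearB A) (bdry A) (by positivity) (fun r r' h => nearB_mono A h)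
    (fun r hr => near_card hA hr) (fun x1 x2 y1 y2 p _ h => comb_base hC hS hB A h)
    (hst L S A hS hB hM)
  have hCb : 0 ≤ C1 * bdry A := by positivity
  rcases top_box hA with hL | ⟨B, x1, y1, hBA, hsub⟩
  · have h1 := key 0 L 0 L (by unfold Adm; omega)
    have e : box L 0 L 0 L = Finset.univ := by
      ext z
      have := z.1.isLt
      have := z.2.isLt
      simp only [geo_mem, Finset.mem_univ, iff_true]
      omega
    rw [e, mm, Finset.inter_univ, Finset.inter_univ, hS.compl, hS.univ] at h1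
    have h2 : ((L - 0 + (L - 0) : ℕ) : ℝ) ≤ 2 * bdry A := by
      exact_mod_cast (show L - 0 + (L - 0) ≤ 2 * bdry A by omega)
    have h3 : C1 * (bdry A + ((L - 0 + (L - 0) : ℕ) : ℝ) + 1) ≤ C1 * (4 * bdry A) :=
      mul_le_mul_of_nonneg_left (by linarith) hC1
    nlinarith [mul_le_mul_of_nonneg_right hC hCb]
  · obtain ⟨W, hW1, hW2⟩ : ∃ W : ℕ, C * (bdry A : ℝ) ^ (3 / 4 : ℝ) ≤ W ∧
        (W : ℝ) ≤ 2 * C * bdry A := by
      refine ⟨⌈C * (bdry A : ℝ) ^ (3 / 4 : ℝ)⌉₊, Nat.le_ceil _, ?_⟩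
      have h1 := (Nat.ceil_lt_add_one
        (show 0 ≤ C * (bdry A : ℝ) ^ (3 / 4 : ℝ) by positivity)).le
      have h2 := comb_pow hb (show (3 / 4 : ℝ) ≤ 1 by norm_num)
      nlinarith
    obtain ⟨l, hl⟩ : ∃ l, l = min L (bdry A + 2 * W) := ⟨_, rfl⟩
    obtain ⟨c, hc⟩ : ∃ c, c = min (x1 - W) (L - l) := ⟨_, rfl⟩
    obtain ⟨d, hd⟩ : ∃ d, d = min (y1 - W) (L - l) := ⟨_, rfl⟩
    have h1 := key c (c + l) d (d + l) (by unfold Adm; omega)
    have hXY : box L x1 (x1 + bdry A) y1 (y1 + bdry A) ⊆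
        box L (x1 - W) (x1 + bdry A + W) (y1 - W) (y1 + bdry A + W) := fun z hz => by
      rw [geo_mem] at hz ⊢
      omega
    have hYQ : box L (x1 - W) (x1 + bdry A + W) (y1 - W) (y1 + bdry A + W) ⊆
        box L c (c + l) d (d + l) := fun z hz => by
      have := z.1.isLt
      have := z.2.isLt
      rw [geo_mem] at hz ⊢
      omega
    have h2 := (bf_mono hS hsub hXY hYQ).trans
      (hM (bdry A) W x1 (x1 + bdry A) y1 (y1 + bdry A) hpos hW1 le_rfl le_rfl)
    have h3 := mm_top (S := S) (hsub.trans (hXY.trans hYQ))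
    have h4 : S B = S A ∧ mm S B (box L c (c + l) d (d + l)) =
        mm S A (box L c (c + l) d (d + l)) := by
      rcases hBA with rfl | rfl
      · exact ⟨rfl, rfl⟩
      · exact ⟨hS.compl _, mm_compl _ _⟩
    rw [h4.1, h4.2] at h3
    have h5 : ((c + l - c + (d + l - d) : ℕ) : ℝ) ≤ 2 * bdry A + 4 * W := by
      exact_mod_cast (show c + l - c + (d + l - d) ≤ 2 * bdry A + 4 * W by omega)
    have h6 : C1 * (bdry A + ((c + l - c + (d + l - d) : ℕ) : ℝ) + 1) ≤
        C1 * (12 * C * bdry A) :=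
      mul_le_mul_of_nonneg_left (by nlinarith) hC1
    have h7 := mul_le_mul_of_nonneg_left (comb_pow hb (show (15 / 16 : ℝ) ≤ 1 by norm_num))
      (show 0 ≤ C by linarith)
    nlinarith

end Vale.Agent.P356H
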