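import Vale.Agent.P356H.Thin

namespace Vale.Agent.P356H

open Vale.Agent.P356 Vale.Agent.P356E

variable {α : Type} [Fintype α] [DecidableEq α] {S : Finset α → ℝ} {A Nr : Finset α}
  {f g : α → ℕ} {L w u p : ℕ} {sw su μu μp : ℝ} {φ : α → ℝ}

theorem corr_aux (h : Ctx S A f g L w u p sw su μu μp φ Nr) {x1 x2 y1 y2 c : ℕ} (h1 : x1 + w ≤ c)
    (h2 : c + w + w ≤ x2) (hx : x2 ≤ L) (hy : y2 ≤ L) (k : ℕ) :
    ∀ y, y1 ≤ y → y2 = y + k → w ≤ k →
      mm S A (bx f g x1 c y1 y2 ∪ bx f g (c + w) x2 y1 y2 ∪ bx f g c (c + w) y y2) ≤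
        mm S A (bx f g x1 c y1 y2 ∪ bx f g (c + w) x2 y1 y2) + ∑ z ∈ bx f g c (c + w) y y2, φ z +
        (2 * su + 6 * (u / w : ℝ) * sw) / (w * u) * (bx f g c (c + w) y y2 ∩ Nr).card +
        (k / u : ℝ) * (μu + 2 * sw) + (2 * su + 6 * (u / w : ℝ) * sw) := by
  have hw1 := h.w1
  have hwu := h.wu
  have hsw := h.sw0
  have hsu := h.su0
  have hmu := h.mu0
  have hw0 : (0 : ℝ) < w := by exact_mod_cast hw1
  have hu0 : (0 : ℝ) < u := by exact_mod_cast (hw1.trans hwu)
  induction k using Nat.strong_induction_on with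
  | _ k ih =>
    intro y hy1 hy2 hk
    by_cases hb : w + u + w ≤ k
    · have a1 := block h (c := c) (y := y) (by omega) (by omega)
        (R := bx f g x1 c y1 y2 ∪ bx f g (c + w) x2 y1 y2 ∪ bx f g c (c + w) y y2) fun z hz => by
          simp only [mem_bx, Finset.mem_union] at hz ⊢
          omega
      have e1 : (bx f g x1 c y1 y2 ∪ bx f g (c + w) x2 y1 y2 ∪ bx f g c (c + w) y y2) \
          bx f g c (c + w) y (y + w + u) =
          bx f g x1 c y1 y2 ∪ bx f g (c + w) x2 y1 y2 ∪ bx f g c (c + w) (y + w + u) y2 := by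
        ext z
        simp only [mem_bx, Finset.mem_union, Finset.mem_sdiff]
        omega
      have a2 := ih (k - (w + u)) (by omega) (y + w + u) (by omega) (by omega) (by omega)
      have e2 : bx f g c (c + w) y y2 =
          bx f g c (c + w) y (y + w + u) ∪ bx f g c (c + w) (y + w + u) y2 := by
        ext z
        simp only [mem_bx, Finset.mem_union]
        omega
      have hd : Disjoint (bx f g c (c + w) y (y + w + u)) (bx f g c (c + w) (y + w + u) y2) :=
        Finset.disjoint_left.2 fun z hz hz' => by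
          rw [mem_bx] at hz hz'
          omega
      have a3 : ∑ z ∈ bx f g c (c + w) y y2, φ z = ∑ z ∈ bx f g c (c + w) y (y + w + u), φ z +
          ∑ z ∈ bx f g c (c + w) (y + w + u) y2, φ z := by rw [e2, Finset.sum_union hd]
      have a4 : ((bx f g c (c + w) y y2 ∩ Nr).card : ℝ) =
          (bx f g c (c + w) y (y + w + u) ∩ Nr).card +
            (bx f g c (c + w) (y + w + u) y2 ∩ Nr).card := by
        rw [e2, Finset.union_inter_distrib_right, Finset.card_union_of_disjoint
          (hd.mono Finset.inter_subset_left Finset.inter_subset_left), Nat.cast_add]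
      have a5 : ((k - (w + u) : ℕ) : ℝ) / u + 1 ≤ k / u := by
        rw [div_add_one hu0.ne']
        refine div_le_div_of_nonneg_right ?_ hu0.le
        exact_mod_cast (by omega : k - (w + u) + u ≤ k)
      have a6 := mul_le_mul_of_nonneg_right a5 (show 0 ≤ μu + 2 * sw by positivity)
      rw [e1] at a1
      rw [a3, a4, mul_add]
      linarith
    · have a1 := mm_child h.ss A (Finset.subset_union_right
        (s₁ := bx f g x1 c y1 y2 ∪ bx f g (c + w) x2 y1 y2) (s₂ := bx f g c (c + w) y y2))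
      have e1 : (bx f g x1 c y1 y2 ∪ bx f g (c + w) x2 y1 y2 ∪ bx f g c (c + w) y y2) \
          bx f g c (c + w) y y2 = bx f g x1 c y1 y2 ∪ bx f g (c + w) x2 y1 y2 := by
        ext z
        simp only [mem_bx, Finset.mem_union, Finset.mem_sdiff]
        omega
      have a2 := thin h (c := c) (by omega) k y y2 hy2 hk hy
      have a3 := h.hsu c (c + w) y y2 (by omega) (by omega)
      have a4 : (k / w : ℝ) ≤ 3 * (u / w) := by
        rw [← mul_div_assoc]
        refine div_le_div_of_nonneg_right ?_ hw0.le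
        exact_mod_cast (by omega : k ≤ 3 * u)
      have a5 := mul_le_mul_of_nonneg_right a4 hsw
      have a6 : 0 ≤ (2 * su + 6 * (u / w : ℝ) * sw) / (w * u) *
        (bx f g c (c + w) y y2 ∩ Nr).card := by positivity
      have a7 : 0 ≤ (k / u : ℝ) * (μu + 2 * sw) := by positivity
      rw [e1] at a1
      linarith

/-- Removing the whole corridor. `J = (y2 - y1 - w) / (u + w)` blocks: induction on `j ≤ J` with
`block` for `R j = Q \ bx c (c + w) y1 (y1 + j (u + w))`; the last piece has height in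
`[w, u + 2 w)`, remove it by `mm_child`, `thin`, `h.hsu`. `J ≤ (y2 - y1) / u`. -/
theorem corr (h : Ctx S A f g L w u p sw su μu μp φ Nr) {x1 x2 y1 y2 c : ℕ} (h1 : x1 + w ≤ c)
    (h2 : c + w + w ≤ x2) (hx : x2 ≤ L) (h3 : y1 + w ≤ y2) (hy : y2 ≤ L) :
    mm S A (bx f g x1 x2 y1 y2) ≤ mm S A (bx f g x1 c y1 y2 ∪ bx f g (c + w) x2 y1 y2) +
      ∑ z ∈ bx f g c (c + w) y1 y2, φ z +
      (2 * su + 6 * (u / w : ℝ) * sw) / (w * u) * (bx f g c (c + w) y1 y2 ∩ Nr).card +
      ((y2 - y1 : ℕ) / u : ℝ) * (μu + 2 * sw) + (2 * su + 6 * (u / w : ℝ) * sw) := by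
  have := corr_aux h (y1 := y1) h1 h2 hx hy (y2 - y1) y1 le_rfl (by omega) (by omega)
  rwa [show bx f g x1 c y1 y2 ∪ bx f g (c + w) x2 y1 y2 ∪ bx f g c (c + w) y1 y2 =
    bx f g x1 x2 y1 y2 by
      ext z
      simp only [mem_bx, Finset.mem_union]
      omega] at this

end Vale.Agent.P356H
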