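import Vale.Agent.P356E.Sq
import Vale.Agent.P356E.Iso

namespace Vale.Agent.P356H

open Vale.Agent.P356 Vale.Agent.P356E

section Abs

variable {α : Type} [Fintype α] [DecidableEq α]

/-- symmetric submodular set functions -/
structure SS (S : Finset α → ℝ) : Prop where
  empty : S ∅ = 0
  compl : ∀ A, S Aᶜ = S A
  sub : ∀ A B, S (A ∪ B) + S (A ∩ B) ≤ S A + S B

/-- mutual information of the two colours inside `Q` -/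
def mm (S : Finset α → ℝ) (A Q : Finset α) : ℝ := S (A ∩ Q) + S (Aᶜ ∩ Q) - S Q

/-- mutual information of `X` and the complement of `Y` -/
def bf (S : Finset α → ℝ) (X Y : Finset α) : ℝ := S X + S Y - S (Y \ X)

/-- boxes for two coordinate functions -/
def bx (f g : α → ℕ) (x1 x2 y1 y2 : ℕ) : Finset α :=
  Finset.univ.filter fun z => x1 ≤ f z ∧ f z < x2 ∧ y1 ≤ g z ∧ g z < y2

/-- `T` has one colour -/
def Mono (A T : Finset α) : Prop := T ⊆ A ∨ T ⊆ Aᶜ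

/-- boxes inside the grid with bounded aspect ratio -/
def Adm (L x1 x2 y1 y2 : ℕ) : Prop :=
  x1 ≤ x2 ∧ x2 ≤ L ∧ y1 ≤ y2 ∧ y2 ≤ L ∧ x2 - x1 ≤ 4 * (y2 - y1) ∧ y2 - y1 ≤ 4 * (x2 - x1)

/-- the data of one step of the recursion -/
structure Ctx (S : Finset α → ℝ) (A : Finset α) (f g : α → ℕ) (L w u p : ℕ) (sw su μu μp : ℝ)
    (φ : α → ℝ) (Nr : Finset α) : Prop where
  ss : SS S
  w1 : 1 ≤ w
  wu : w ≤ u
  wp : 12 * w ≤ p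
  sw0 : 0 ≤ sw
  su0 : 0 ≤ su
  mu0 : 0 ≤ μu
  phi0 : ∀ z, 0 ≤ φ z
  card : ∀ x1 x2 y1 y2, x2 ≤ L → y2 ≤ L → (bx f g x1 x2 y1 y2).card = (x2 - x1) * (y2 - y1)
  hsw : ∀ x1 x2 y1 y2, x2 ≤ x1 + w → y2 ≤ y1 + w → S (bx f g x1 x2 y1 y2) ≤ sw
  hsu : ∀ x1 x2 y1 y2, x2 ≤ x1 + 3 * u → y2 ≤ y1 + 3 * u → S (bx f g x1 x2 y1 y2) ≤ su
  hmu : ∀ x1 x2 y1 y2, x2 ≤ x1 + u → y2 ≤ y1 + u →
    bf S (bx f g x1 x2 y1 y2) (bx f g (x1 - w) (x2 + w) (y1 - w) (y2 + w)) ≤ μu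
  hmp : ∀ x1 x2 y1 y2, x2 ≤ x1 + p → y2 ≤ y1 + p →
    bf S (bx f g x1 x2 y1 y2) (bx f g (x1 - w) (x2 + w) (y1 - w) (y2 + w)) ≤ μp
  nr : ∀ x1 x2 y1 y2, x2 ≤ x1 + 3 * u → y2 ≤ y1 + 3 * u → ¬ Mono A (bx f g x1 x2 y1 y2) →
    bx f g x1 x2 y1 y2 ⊆ Nr
  ih : ∀ x1 x2 y1 y2, Adm L x1 x2 y1 y2 → 8 * ((x2 - x1) + (y2 - y1)) ≤ 7 * p →
    mm S A (bx f g x1 x2 y1 y2) ≤ ∑ z ∈ bx f g x1 x2 y1 y2, φ z

end Abs

/-- sites whose square of radius `r` has both colours -/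
noncomputable def nearB {L : ℕ} (A : Finset (St L)) (r : ℕ) : Finset (St L) :=
  open Classical in Finset.univ.filter fun z => ¬ Mono A (geoSq L r z)

/-- both colours are connected -/
def Uns {L : ℕ} (A : Finset (St L)) : Prop :=
  ∀ B, B = A ∨ B = Aᶜ → ∀ B1, B1 ⊆ B → (∀ u ∈ B1, ∀ v ∈ B, dist1 u v = 1 → v ∈ B1) →
    B1 = ∅ ∨ B1 = B

/-- power bound for boxes -/
def HB (L : ℕ) (S : Finset (St L) → ℝ) (C : ℝ) : Prop :=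
  ∀ l x1 x2 y1 y2 : ℕ, 1 ≤ l → x2 ≤ x1 + l → y2 ≤ y1 + l →
    S (box L x1 x2 y1 y2) ≤ C * (l : ℝ) ^ (65 / 64 : ℝ)

/-- small mutual information across wide collars of boxes -/
def HM (L : ℕ) (S : Finset (St L) → ℝ) (C : ℝ) : Prop :=
  ∀ l W x1 x2 y1 y2 : ℕ, 1 ≤ l → C * (l : ℝ) ^ (3 / 4 : ℝ) ≤ W → x2 ≤ x1 + l → y2 ≤ y1 + l →
    bf S (box L x1 x2 y1 y2) (box L (x1 - W) (x2 + W) (y1 - W) (y2 + W)) ≤
      C * (l : ℝ) ^ (15 / 16 : ℝ)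

/-- the recursion on the grid -/
def StepG (L : ℕ) (m : Finset (St L) → ℝ) (nr : ℕ → Finset (St L)) (D : ℝ) (p0 : ℕ) : Prop :=
  ∀ (x1 x2 y1 y2 p : ℕ) (φ : St L → ℝ), Adm L x1 x2 y1 y2 → (x2 - x1) + (y2 - y1) = p → p0 ≤ p →
    (∀ z, 0 ≤ φ z) → (∀ a1 a2 b1 b2, Adm L a1 a2 b1 b2 → 8 * ((a2 - a1) + (b2 - b1)) ≤ 7 * p →
      m (box L a1 a2 b1 b2) ≤ ∑ z ∈ box L a1 a2 b1 b2, φ z) →
    ∃ r : ℕ, 1 ≤ r ∧ (r : ℝ) ≤ D * (p : ℝ) ^ (7 / 8 : ℝ) ∧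
      m (box L x1 x2 y1 y2) ≤ ∑ z ∈ box L x1 x2 y1 y2, φ z +
        D * (p : ℝ) ^ (-(15 / 16) : ℝ) * (box L x1 x2 y1 y2 ∩ nr r).card +
        D * (p : ℝ) ^ (-(33 / 32) : ℝ) * (box L x1 x2 y1 y2 ∩ nr p).card

theorem mem_bx {α : Type} [Fintype α] {f g : α → ℕ} {x1 x2 y1 y2 : ℕ} {z : α} :
    z ∈ bx f g x1 x2 y1 y2 ↔ x1 ≤ f z ∧ f z < x2 ∧ y1 ≤ g z ∧ g z < y2 := by
  simp [bx]

theorem bx_swap {α : Type} [Fintype α] (f g : α → ℕ) (x1 x2 y1 y2 : ℕ) :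
    bx g f y1 y2 x1 x2 = bx f g x1 x2 y1 y2 := by
  ext z
  rw [mem_bx, mem_bx]
  omega

theorem bx_box (L x1 x2 y1 y2 : ℕ) :
    bx (fun z : St L => z.1.val) (fun z => z.2.val) x1 x2 y1 y2 = box L x1 x2 y1 y2 := rfl

theorem mem_nearB {L : ℕ} {A : Finset (St L)} {r : ℕ} {z : St L} :
    z ∈ nearB A r ↔ ¬ Mono A (geoSq L r z) := by
  simp [nearB]

theorem Mono.sub {α : Type} [Fintype α] [DecidableEq α] {A T T' : Finset α} (h : Mono A T)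
    (hT : T' ⊆ T) : Mono A T' :=
  h.imp (fun h => hT.trans h) fun h => hT.trans h

theorem nearB_mono {L : ℕ} (A : Finset (St L)) {r r' : ℕ} (h : r ≤ r') : nearB A r ⊆ nearB A r' :=
  fun z hz => mem_nearB.2 fun hm => mem_nearB.1 hz (hm.sub fun y hy => by
    rw [mem_sq] at hy ⊢
    omega)

theorem box_near {L : ℕ} (A : Finset (St L)) {x1 x2 y1 y2 r : ℕ} (hx : x2 ≤ x1 + r)
    (hy : y2 ≤ y1 + r) (h : ¬ Mono A (box L x1 x2 y1 y2)) : box L x1 x2 y1 y2 ⊆ nearB A r :=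
  fun z hz => mem_nearB.2 fun hm => h (hm.sub fun y hy => by
    rw [geo_mem] at hy hz
    rw [mem_sq]
    omega)

end Vale.Agent.P356H
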