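import Vale.Agent.P356H.SSA1

namespace Vale.Agent.P356H

open Matrix Vale.Agent.P356 Vale.Agent.P356G

variable {Λ Q : Type} [Fintype Λ] [DecidableEq Λ] [Fintype Q] [DecidableEq Q] [Nonempty Q]

set_option linter.unusedSectionVars false

/-- block Cauchy-Schwarz -/
theorem ssa2_cs {n ι : Type} [Fintype n] [DecidableEq n] [Fintype ι] (P R : ι → Matrix n n ℂ)
    (hP : ∑ t, P t * (P t)ᴴ = 1) (hR : ∑ t, (R t)ᴴ * R t = 1) : Bd (∑ t, P t * R t) 1 := by
  intro v
  set u := (∑ t, P t * R t) *ᵥ v with hu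
  have e1 : ∑ t, nr ((P t)ᴴ *ᵥ u) ^ 2 = nr u ^ 2 := by
    rw [nr_sq, ← qf_one, ← hP, qf_sum]
    refine Finset.sum_congr rfl fun t _ => ?_
    rw [nr_sq, ← qf_ct_mul, conjTranspose_conjTranspose]
  have e2 : ∑ t, nr (R t *ᵥ v) ^ 2 = nr v ^ 2 := by
    rw [nr_sq, ← qf_one, ← hR, qf_sum]
    refine Finset.sum_congr rfl fun t _ => ?_
    rw [nr_sq, ← qf_ct_mul]
  have e3 : nr u ^ 2 ≤ ∑ t, nr ((P t)ᴴ *ᵥ u) * nr (R t *ᵥ v) := by
    have h : star u ⬝ᵥ u = ∑ t, star ((P t)ᴴ *ᵥ u) ⬝ᵥ (R t *ᵥ v) := by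
      conv_lhs => rw [show star u ⬝ᵥ u = star u ⬝ᵥ ((∑ t, P t * R t) *ᵥ v) from rfl]
      rw [sum_mulVec, dotProduct_sum]
      refine Finset.sum_congr rfl fun t _ => ?_
      rw [← mulVec_mulVec, dot_mulVec]
    rw [nr_sq, ← Complex.ofReal_re (nsq u), nsq_eq, h]
    refine (Complex.re_le_norm _).trans ((norm_sum_le _ _).trans ?_)
    exact Finset.sum_le_sum fun t _ => dot_le _ _
  have e4 := Finset.sum_mul_sq_le_sq_mul_sq Finset.univ (fun t => nr ((P t)ᴴ *ᵥ u))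
    (fun t => nr (R t *ᵥ v))
  rw [e1, e2] at e4
  have hu0 := nr_nonneg u
  have hv0 := nr_nonneg v
  have e5 : (nr u ^ 2) ^ 2 ≤ nr u ^ 2 * nr v ^ 2 :=
    (pow_le_pow_left₀ (sq_nonneg _) e3 2).trans e4
  rw [one_mul]
  by_contra hc
  push Not at hc
  have h1 : 0 < nr u := lt_of_le_of_lt hv0 hc
  have h2 : nr v ^ 2 < nr u ^ 2 := pow_lt_pow_left₀ hc hv0 two_ne_zero
  nlinarith [pow_pos h1 2]

theorem ssa2_lift_zero (B : Finset Λ) :
    lift B (0 : Matrix ({z // z ∈ B} → Q) ({z // z ∈ B} → Q) ℂ) = 0 := by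
  ext s t
  simp [lift]

theorem ssa2_mul (B : Finset Λ) (i j k l : {z // z ∈ B} → Q) :
    un B i j * un B k l = if j = k then un B i l else 0 := by
  unfold un
  rw [← lift_mul]
  split_ifs with h
  · subst h
    rw [single_mul_single_same, one_mul]
  · rw [single_mul_single_of_ne _ _ _ _ h, ssa2_lift_zero]

theorem ssa2_same (B : Finset Λ) (i j l : {z // z ∈ B} → Q) :
    un B i j * un B j l = un B i l := by
  rw [ssa2_mul, if_pos rfl]

theorem ssa2_ct (B : Finset Λ) (i j : {z // z ∈ B} → Q) : (un B i j)ᴴ = un B j i := by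
  unfold un
  rw [← lift_ct, conjTranspose_single, star_one]

theorem ssa2_one (B : Finset Λ) : ∑ i : {z // z ∈ B} → Q, un B i i = 1 := by
  rw [← lift_one B]
  ext s t
  simp only [un, Matrix.sum_apply, lift, one_apply]
  split_ifs with h1 h2
  · rw [h2, Finset.sum_eq_single (res B t)]
    · simp
    · intro b _ hb
      exact single_apply_of_row_ne hb _ _ _
    · simp
  · refine Finset.sum_eq_zero fun b _ => ?_
    rw [single_apply, if_neg]
    rintro ⟨h3, h4⟩
    exact h2 (h3.symm.trans h4)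
  · simp

/-- the blocks of a matrix -/
def ssa2B (B : Finset Λ) (M : Matrix (Λ → Q) (Λ → Q) ℂ) (i j : {z // z ∈ B} → Q) :
    Matrix (Λ → Q) (Λ → Q) ℂ :=
  ∑ k, un B k i * M * un B j k

theorem ssa2B_ct (B : Finset Λ) (M : Matrix (Λ → Q) (Λ → Q) ℂ) (i j : {z // z ∈ B} → Q) :
    (ssa2B B M i j)ᴴ = ssa2B B Mᴴ j i := by
  unfold ssa2B
  rw [conjTranspose_sum]
  refine Finset.sum_congr rfl fun k _ => ?_
  rw [conjTranspose_mul, conjTranspose_mul, ssa2_ct, ssa2_ct, Matrix.mul_assoc]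

theorem ssa2B_left (B : Finset Λ) (M : Matrix (Λ → Q) (Λ → Q) ℂ) (a b i j : {z // z ∈ B} → Q) :
    un B a b * ssa2B B M i j = un B a i * M * un B j b := by
  unfold ssa2B
  rw [Finset.mul_sum, Finset.sum_eq_single b]
  · rw [← Matrix.mul_assoc, ← Matrix.mul_assoc, ssa2_same]
  · intro k _ hk
    rw [← Matrix.mul_assoc, ← Matrix.mul_assoc, ssa2_mul, if_neg (Ne.symm hk), Matrix.zero_mul,
      Matrix.zero_mul]
  · simp

theorem ssa2B_mul (B : Finset Λ) (M N : Matrix (Λ → Q) (Λ → Q) ℂ) (i l : {z // z ∈ B} → Q) :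
    ∑ j, ssa2B B M i j * ssa2B B N j l = ssa2B B (M * N) i l := by
  have e : ∀ j, ssa2B B M i j * ssa2B B N j l
      = ∑ a, un B a i * M * un B j j * N * un B l a := fun j => by
    rw [ssa2B, Finset.sum_mul]
    refine Finset.sum_congr rfl fun a _ => ?_
    rw [Matrix.mul_assoc (un B a i * M), ssa2B_left]
    simp only [Matrix.mul_assoc]
  simp only [e]
  rw [Finset.sum_comm, ssa2B]
  refine Finset.sum_congr rfl fun a _ => ?_
  rw [← Finset.sum_mul, ← Finset.sum_mul, ← Finset.mul_sum, ssa2_one, Matrix.mul_one,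
    Matrix.mul_assoc (un B a i)]

theorem ssa2B_tw (B : Finset Λ) (M : Matrix (Λ → Q) (Λ → Q) ℂ) :
    ∑ j, ssa2B B M j j = tw B M := by
  unfold ssa2B tw
  exact Finset.sum_comm

theorem ssa2B_eq (B : Finset Λ) (M : Matrix (Λ → Q) (Λ → Q) ℂ) (i j : {z // z ∈ B} → Q) :
    ssa2B B M i j = tw B (M * un B j i) := by
  unfold ssa2B tw
  refine Finset.sum_congr rfl fun k _ => ?_
  rw [Finset.sum_eq_single i]
  · rw [Matrix.mul_assoc, Matrix.mul_assoc, Matrix.mul_assoc, ssa2_same]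
  · intro l _ hl
    rw [Matrix.mul_assoc, Matrix.mul_assoc, ssa2_mul, if_neg (Ne.symm hl), Matrix.mul_zero,
      Matrix.mul_zero]
  · simp

theorem ssa2_loc {A B : Finset Λ} (hAB : Disjoint A B) {M : Matrix (Λ → Q) (Λ → Q) ℂ}
    (hM : Loc (fun z => z ∈ A ∪ B) M) : Loc (fun z => z ∈ A) (tw B M) := by
  have hd : ∀ x, x ∈ B → x ∉ A := fun x hx hA => Finset.disjoint_left.1 hAB hA hx
  refine ⟨fun s t x hx hne => ?_, fun s t s' t' h1 h2 h3 h4 => ?_⟩
  · rw [tw_apply]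
    split_ifs with h
    · have hB : x ∉ B := fun hB => hne ((loc_res_iff B s t).1 h x hB)
      refine Finset.sum_eq_zero fun j _ => hM.1 _ _ x (by simp [hx, hB]) ?_
      simpa [glue, cores, hB] using hne
    · rfl
  · rw [tw_apply, tw_apply, if_pos ((loc_res_iff B s t).2 fun x hx => h3 x (hd x hx)),
      if_pos ((loc_res_iff B s' t').2 fun x hx => h4 x (hd x hx))]
    refine Finset.sum_congr rfl fun j _ => hM.2 _ _ _ _ (fun x hx => ?_) (fun x hx => ?_)
      (fun x hx => ?_) (fun x hx => ?_)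
    · by_cases hB : x ∈ B
      · simp [glue, hB]
      · simpa [glue, cores, hB] using h1 x (by simpa [hB] using hx)
    · by_cases hB : x ∈ B
      · simp [glue, hB]
      · simpa [glue, cores, hB] using h2 x (by simpa [hB] using hx)
    · have hx' : x ∉ A ∧ x ∉ B := by simpa using hx
      simpa [glue, cores, hx'.2] using h3 x hx'.1
    · have hx' : x ∉ A ∧ x ∉ B := by simpa using hx
      simpa [glue, cores, hx'.2] using h4 x hx'.1

theorem ssa2B_loc {A B : Finset Λ} (hAB : Disjoint A B) {M : Matrix (Λ → Q) (Λ → Q) ℂ}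
    (hM : Loc (fun z => z ∈ A ∪ B) M) (i j : {z // z ∈ B} → Q) :
    Loc (fun z => z ∈ A) (ssa2B B M i j) := by
  rw [ssa2B_eq]
  exact ssa2_loc hAB (hM.mul ((loc_lift B _).mono fun x hx => Finset.mem_union_right _ hx))

/-- The Lin-Kim-Hsieh contraction. Blocks `Xb i j = ∑ k, un k i * X * un j k` (local on `A`, commute
with all `un`), `X = ∑ i j, Xb i j * un i j`, the same for `Y` (local on `C`, so `Xb`, `Yb` commute).
Fix `o`. `<u, X Y v> = ∑ i j k, <(Yb j k)ᴴ un o i u, Xb i j un o k v>`; Cauchy-Schwarz;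
`∑ i j, (Xb i j)ᴴ * Xb i j = tw B (Xᴴ * X)`, `∑ j k, Yb j k * (Yb j k)ᴴ = tw B (Y * Yᴴ)`,
`∑ k, nsq (un o k v) = nsq v`. Take `u = X Y v`. -/
theorem lkh {A B C : Finset Λ} (hAB : Disjoint A B) (hBC : Disjoint B C) (hAC : Disjoint A C)
    {X Y : Matrix (Λ → Q) (Λ → Q) ℂ} (hX : Loc (fun z => z ∈ A ∪ B) X)
    (hY : Loc (fun z => z ∈ C ∪ B) Y) (h1 : tw B (Xᴴ * X) = 1) (h2 : tw B (Y * Yᴴ) = 1) :
    Bd (X * Y) 1 := by
  obtain ⟨q⟩ := ‹Nonempty Q›
  let o : {z // z ∈ B} → Q := fun _ => q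
  have hc : ∀ i j k l, ssa2B B Y i j * ssa2B B X k l = ssa2B B X k l * ssa2B B Y i j :=
    fun i j k l => ((ssa2B_loc hAB hX k l).comm (ssa2B_loc hBC.symm hY i j)
      fun x hA hC => Finset.disjoint_left.1 hAC hA hC).symm
  have key := ssa2_cs
    (ι := ({z // z ∈ B} → Q) × ({z // z ∈ B} → Q) × ({z // z ∈ B} → Q))
    (fun t => un B t.1 o * ssa2B B Y t.2.2 t.2.1) (fun t => ssa2B B X t.1 t.2.2 * un B o t.2.1)
    ?_ ?_
  · have e : ∑ t : ({z // z ∈ B} → Q) × ({z // z ∈ B} → Q) × ({z // z ∈ B} → Q),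
        (un B t.1 o * ssa2B B Y t.2.2 t.2.1) * (ssa2B B X t.1 t.2.2 * un B o t.2.1) = X * Y := by
      have e1 : ∀ i k, ∑ j, (un B i o * ssa2B B Y j k) * (ssa2B B X i j * un B o k)
          = un B i i * (X * Y) * un B k k := fun i k => by
        have e2 : ∀ j, (un B i o * ssa2B B Y j k) * (ssa2B B X i j * un B o k)
            = un B i o * (ssa2B B X i j * ssa2B B Y j k) * un B o k := fun j => by
          rw [← hc]
          simp only [Matrix.mul_assoc]
        simp only [e2]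
        rw [← Finset.sum_mul, ← Finset.mul_sum, ssa2B_mul, ssa2B_left,
          Matrix.mul_assoc _ (un B k o), ssa2_same]
      simp only [Fintype.sum_prod_type, e1]
      simp only [← Finset.mul_sum, ← Finset.sum_mul, ssa2_one, Matrix.mul_one, Matrix.one_mul]
    rwa [e] at key
  · have e1 : ∀ i k j, (un B i o * ssa2B B Y j k) * (un B i o * ssa2B B Y j k)ᴴ
        = un B i o * (ssa2B B Y j k * ssa2B B Yᴴ k j) * un B o i := fun i k j => by
      rw [conjTranspose_mul, ssa2B_ct, ssa2_ct]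
      simp only [Matrix.mul_assoc]
    simp only [Fintype.sum_prod_type, e1]
    rw [← ssa2_one B]
    refine Finset.sum_congr rfl fun i _ => ?_
    simp only [← Finset.mul_sum, ← Finset.sum_mul]
    rw [Finset.sum_comm]
    simp only [ssa2B_mul]
    rw [ssa2B_tw, h2, Matrix.mul_one, ssa2_same]
  · have e1 : ∀ i k j, (ssa2B B X i j * un B o k)ᴴ * (ssa2B B X i j * un B o k)
        = un B k o * (ssa2B B Xᴴ j i * ssa2B B X i j) * un B o k := fun i k j => by
      rw [conjTranspose_mul, ssa2B_ct, ssa2_ct]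
      simp only [Matrix.mul_assoc]
    simp only [Fintype.sum_prod_type, e1]
    rw [← ssa2_one B, Finset.sum_comm]
    refine Finset.sum_congr rfl fun k _ => ?_
    simp only [← Finset.mul_sum, ← Finset.sum_mul]
    rw [Finset.sum_comm]
    simp only [ssa2B_mul]
    rw [ssa2B_tw, h1, Matrix.mul_one, ssa2_same]

end Vale.Agent.P356H
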