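import Vale.Agent.P356H.SSA0
import Vale.Agent.P356H.SSA2
import Vale.Agent.P356H.Defs

namespace Vale.Agent.P356H

open Matrix Vale.Agent.P356 Vale.Agent.P356G

variable {Λ Q : Type} [Fintype Λ] [DecidableEq Λ] [Fintype Q] [DecidableEq Q] [Nonempty Q]

theorem ssa_tw {A B : Finset Λ} (hAB : Disjoint A B) {ψ : (Λ → Q) → ℂ} {α α' β : ℝ}
    (h : (Fintype.card Q : ℝ) ^ B.card * α = α') (hb : Pd (rg α' β A ψ)) :
    tw B (cpw (rg α' β A ψ) (-1 / 2) * rg α β (A ∪ B) ψ * cpw (rg α' β A ψ) (-1 / 2)) = 1 := by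
  have hl : Loc (fun z => z ∉ B) (cpw (rg α' β A ψ) (-1 / 2)) :=
    (hf_loc (rg_loc α' β A ψ) _).mono fun x hx => Finset.disjoint_left.1 hAB hx
  rw [tw_conj B hl hl, tw_rg hAB, h]
  nth_rw 2 [← cpw_half hb]
  rw [← Matrix.mul_assoc, (cpw_half_inv hb.1).2, Matrix.one_mul, (cpw_half_inv hb.1).1]

theorem ssa_t {A B C : Finset Λ} (hAB : Disjoint A B) (hBC : Disjoint B C) (hAC : Disjoint A C)
    {ψ : (Λ → Q) → ℂ} (hψ : nsq ψ = 1) {t : ℝ} (h0 : 0 < t) (h1 : t < 1) :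
    entropy A ψ + entropy C ψ ≤
      entropy (A ∪ B) ψ + entropy (C ∪ B) ψ - 2 * Real.log (1 - t) := by
  have hq : (0 : ℝ) < Fintype.card Q := ent_q_pos
  have hβ : 0 < 1 - t := by linarith
  set r := fun Y : Finset Λ => rg (t / (Fintype.card Q : ℝ) ^ Y.card) (1 - t) Y ψ with hr
  have pd : ∀ Y, Pd (r Y) := fun Y => (rg_spIn _ hβ.le Y hψ).pd (by positivity)
  have lc : ∀ Y, Loc (fun z => z ∈ Y) (r Y) := fun Y => rg_loc _ _ Y ψ
  have en := fun Y : Finset Λ => ent_rg Y hψ (α := t / (Fintype.card Q : ℝ) ^ Y.card)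
    (by positivity) hβ (by field_simp; ring)
  have cm : ∀ Y Z, Disjoint Y Z → Commute (r Y) (r Z) := fun Y Z h =>
    (lc Y).comm (lc Z) fun x hx => Finset.disjoint_left.1 h hx
  have tw1 : ∀ Y, Disjoint Y B →
      tw B (cpw (r Y) (-1 / 2) * r (Y ∪ B) * cpw (r Y) (-1 / 2)) = 1 := fun Y h =>
    ssa_tw h (by rw [Finset.card_union_of_disjoint h, pow_add]; field_simp) (pd Y)
  have l2 : ∀ Y z, Loc (fun x => x ∈ Y ∪ B) (cpw (r Y) z) := fun Y z =>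
    (hf_loc (lc Y) _).mono fun x hx => Finset.mem_union_left _ hx
  have key := lkh hAB hBC hAC (X := cpw (r (A ∪ B)) (1 / 2) * cpw (r A) (-1 / 2))
    (Y := cpw (r C) (-1 / 2) * cpw (r (C ∪ B)) (1 / 2))
    ((hf_loc (lc _) _).mul (l2 A _)) ((l2 C _).mul (hf_loc (lc _) _))
    (by rw [conjTranspose_mul, cpw_half_herm, cpw_nhalf_herm, Matrix.mul_assoc,
      ← Matrix.mul_assoc (cpw (r (A ∪ B)) _), cpw_half (pd _), ← Matrix.mul_assoc, tw1 A hAB])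
    (by rw [conjTranspose_mul, cpw_half_herm, cpw_nhalf_herm, Matrix.mul_assoc,
      ← Matrix.mul_assoc (cpw (r (C ∪ B)) _), cpw_half (pd _), ← Matrix.mul_assoc,
      tw1 C hBC.symm])
  have four := log_four (pd _) (pd _) (pd _) (pd _)
    (cm _ _ (Finset.disjoint_union_left.2 ⟨hAC, hBC⟩))
    (cm _ _ (Finset.disjoint_union_right.2 ⟨hAC, hAB⟩)) (cm _ _ hAC) key ψ
  linarith [(en A).1, (en C).1, (en (A ∪ B)).2, (en (C ∪ B)).2]

/-- Weak monotonicity. For `0 < t < 1`: `β = 1 - t`, `a = rg (t / q ^ |A ∪ B|) β (A ∪ B) ψ`,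
`b = rg (t / q ^ |A|) β A ψ = tw B a` (`tw_rg`), `d`, `c` the same for `C ∪ B`, `C`.
`X = a ^ (1/2) b ^ (-1/2)`, `Y = c ^ (-1/2) d ^ (1/2)`, `tw_conj`, `lkh`, `log_four`, `ent_rg`
(`rg_spIn`, `rg_loc`, `hf_loc`, `Loc.comm`); the error `- 2 log (1 - t)` tends to zero. -/
theorem wm {A B C : Finset Λ} (hAB : Disjoint A B) (hBC : Disjoint B C) (hAC : Disjoint A C)
    {ψ : (Λ → Q) → ℂ} (hψ : nsq ψ = 1) :
    entropy A ψ + entropy C ψ ≤ entropy (A ∪ B) ψ + entropy (C ∪ B) ψ := by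
  have h : Filter.Tendsto (fun t : ℝ => entropy (A ∪ B) ψ + entropy (C ∪ B) ψ - 2 * Real.log (1 - t))
      (nhdsWithin 0 (Set.Ioi 0))
      (nhds (entropy (A ∪ B) ψ + entropy (C ∪ B) ψ - 2 * Real.log (1 - 0))) :=
    Filter.Tendsto.mono_left (ContinuousAt.tendsto (by fun_prop (disch := norm_num)))
      nhdsWithin_le_nhds
  rw [sub_zero, Real.log_one, mul_zero, sub_zero] at h
  refine ge_of_tendsto h ?_
  filter_upwards [Ioo_mem_nhdsGT (zero_lt_one' ℝ)] with t ht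
  exact ssa_t hAB hBC hAC hψ ht.1 ht.2

/-- `wm` with `A = X ∩ Y`, `B = X \ Y`, `C = (X ∪ Y)ᶜ`, `ent_compl` -/
theorem ssa {ψ : (Λ → Q) → ℂ} (hψ : nsq ψ = 1) : SS fun A : Finset Λ => entropy A ψ := by
  refine ⟨le_antisymm (by simpa using ent_le_card (∅ : Finset Λ) hψ) (ent_nonneg _ hψ),
    fun A => ent_compl A ψ, fun X Y => ?_⟩
  have h := wm (A := X ∩ Y) (B := X \ Y) (C := (X ∪ Y)ᶜ) (ψ := ψ)
    (Finset.disjoint_left.2 fun z h1 h2 => by simp_all)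
    (Finset.disjoint_left.2 fun z h1 h2 => by simp_all)
    (Finset.disjoint_left.2 fun z h1 h2 => by simp_all) hψ
  have e1 : X ∩ Y ∪ X \ Y = X := by
    ext z
    simp only [Finset.mem_union, Finset.mem_inter, Finset.mem_sdiff]
    tauto
  have e2 : (X ∪ Y)ᶜ ∪ X \ Y = Yᶜ := by
    ext z
    simp only [Finset.mem_union, Finset.mem_compl, Finset.mem_sdiff]
    tauto
  rw [e1, e2, ent_compl, ent_compl] at h
  linarith

end Vale.Agent.P356H
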