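import Vale.Agent.P356H.Defs

namespace Vale.Agent.P356H

variable {α : Type} [Fintype α] [DecidableEq α] {S : Finset α → ℝ}

theorem SS.univ (h : SS S) : S Finset.univ = 0 := by
  rw [← Finset.compl_empty, h.compl, h.empty]

theorem SS.nonneg (h : SS S) (A : Finset α) : 0 ≤ S A := by
  have := h.sub A Aᶜ
  rw [Finset.union_compl, Finset.inter_compl, h.univ, h.empty, h.compl] at this
  linarith

theorem SS.union_le (h : SS S) (A B : Finset α) : S (A ∪ B) ≤ S A + S B := by
  linarith [h.sub A B, h.nonneg (A ∩ B)]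

theorem SS.inter_le (h : SS S) (A B : Finset α) : S (A ∩ B) ≤ S A + S B := by
  linarith [h.sub A B, h.nonneg (A ∪ B)]

theorem SS.sdiff_le (h : SS S) (A B : Finset α) : S (A \ B) ≤ S A + S B := by
  rw [Finset.sdiff_eq_inter_compl, ← h.compl B]
  exact h.inter_le _ _

theorem SS.card_le (h : SS S) {σ : ℝ} (hσ : ∀ z, S {z} ≤ σ) (A : Finset α) :
    S A ≤ σ * A.card := by
  induction A using Finset.induction_on with
  | empty => simp [h.empty]
  | insert a A ha ih =>
    rw [Finset.card_insert_of_notMem ha, Finset.insert_eq]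
    push_cast
    linarith [h.union_le {a} A, hσ a]

theorem bf_mono (h : SS S) {X X' Y Y' : Finset α} (h1 : X' ⊆ X) (h2 : X ⊆ Y) (h3 : Y ⊆ Y') :
    bf S X' Y' ≤ bf S X Y := by
  have a1 := h.sub X (Y \ X')ᶜ
  have a2 := h.sub Y (Y' \ X')ᶜ
  have b1 := fun z => @h1 z
  have b2 := fun z => @h2 z
  have b3 := fun z => @h3 z
  have e1 : X ∪ (Y \ X')ᶜ = (Y \ X)ᶜ := by ext z; grind [Finset.mem_compl]
  have e2 : X ∩ (Y \ X')ᶜ = X' ∪ (X ∩ Yᶜ) := by ext z; grind [Finset.mem_compl]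
  have e2' : X' ∪ (X ∩ Yᶜ) = X' := by ext z; grind [Finset.mem_compl]
  have a3 := h.sub Yᶜ (Y' \ X')ᶜ
  have e3 : Yᶜ ∪ (Y' \ X')ᶜ = (Y \ X')ᶜ := by ext z; grind [Finset.mem_compl]
  have e4 : Yᶜ ∩ (Y' \ X')ᶜ = Y'ᶜ := by ext z; grind [Finset.mem_compl]
  rw [e1, e2, e2', h.compl, h.compl] at a1
  rw [e3, e4, h.compl, h.compl, h.compl, h.compl] at a3
  unfold bf
  linarith

theorem bf_nonneg (h : SS S) {X Y : Finset α} : 0 ≤ bf S X Y := by
  have := h.sdiff_le Y X
  unfold bf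
  linarith

omit [Fintype α] in
theorem bf_le [Fintype α] (h : SS S) {X Y : Finset α} (hXY : X ⊆ Y) : bf S X Y ≤ 2 * S X := by
  have := h.union_le X (Y \ X)
  rw [Finset.union_sdiff_of_subset hXY] at this
  unfold bf
  linarith

theorem mm_compl (A Q : Finset α) : mm S Aᶜ Q = mm S A Q := by
  unfold mm
  rw [compl_compl]
  ring

theorem mm_mono (h : SS S) {A Q : Finset α} (hm : Mono A Q) : mm S A Q = 0 := by
  have key : ∀ B : Finset α, Q ⊆ B → mm S B Q = 0 := fun B hB => by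
    have b1 := fun z => @hB z
    have e1 : B ∩ Q = Q := by ext z; grind [Finset.mem_compl]
    have e2 : Bᶜ ∩ Q = ∅ := by ext z; grind [Finset.mem_compl]
    rw [mm, e1, e2, h.empty]
    ring
  rcases hm with hm | hm
  · exact key A hm
  · rw [← mm_compl]; exact key _ hm

theorem mm_le (h : SS S) (A Q : Finset α) : mm S A Q ≤ 2 * S (A ∩ Q) := by
  have := h.sdiff_le Q (A ∩ Q)
  have e : Q \ (A ∩ Q) = Aᶜ ∩ Q := by ext z; grind [Finset.mem_compl]
  rw [e] at this
  unfold mm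
  linarith

theorem mm_split (h : SS S) (A P T : Finset α) :
    mm S A (P ∪ T) ≤ mm S A P + mm S A T + (S P + S T - S (P ∪ T)) := by
  have a1 := h.union_le (A ∩ P) (A ∩ T)
  have a2 := h.union_le (Aᶜ ∩ P) (Aᶜ ∩ T)
  rw [← Finset.inter_union_distrib_left] at a1 a2
  unfold mm
  linarith

/-- removing a piece `T` as a child -/
theorem mm_child (h : SS S) (A : Finset α) {Q T : Finset α} (hT : T ⊆ Q) :
    mm S A Q ≤ mm S A (Q \ T) + mm S A T + 2 * S T := by
  have a1 := mm_split h A (Q \ T) T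
  have a2 := h.sdiff_le Q T
  rw [Finset.sdiff_union_of_subset hT] at a1
  linarith

/-- two pieces separated by a collar -/
theorem mm_sep (h : SS S) (A : Finset α) {P T Y : Finset α} (hP : P ⊆ Y) (hT : Disjoint T Y) :
    mm S A (P ∪ T) ≤ mm S A P + mm S A T + bf S P Y := by
  have a1 := mm_split h A P T
  have a2 := h.sub (P ∪ T) Yᶜ
  have b1 := fun z => @hP z
  have b2 := fun z => @Finset.disjoint_left.1 hT z
  have e1 : P ∪ T ∪ Yᶜ = (Y \ P)ᶜ := by ext z; grind [Finset.mem_compl]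
  have e2 : (P ∪ T) ∩ Yᶜ = T := by ext z; grind [Finset.mem_compl]
  rw [e1, e2, h.compl, h.compl] at a2
  unfold bf
  linarith

/-- removing a piece with a one colour collar -/
theorem mm_remove (h : SS S) {A Q D N : Finset α} (hD : D ⊆ N) (hN : N ⊆ Q) (hm : Mono A N) :
    mm S A Q ≤ mm S A (Q \ D) + bf S D N := by
  have key : ∀ B : Finset α, N ⊆ B → mm S B Q ≤ mm S B (Q \ D) + bf S D N := fun B hB => by
    have a1 := h.sdiff_le Q D
    have a2 := bf_mono h (Finset.Subset.refl D) hD (Finset.subset_inter hB hN)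
    have b1 := fun z => @hD z
    have b2 := fun z => @hB z
    have e1 : B ∩ (Q \ D) = (B ∩ Q) \ D := by ext z; grind [Finset.mem_compl]
    have e2 : Bᶜ ∩ (Q \ D) = Bᶜ ∩ Q := by ext z; grind [Finset.mem_compl]
    unfold mm
    rw [e1, e2]
    unfold bf at a2 ⊢
    linarith
  rcases hm with hm | hm
  · exact key A hm
  · rw [← mm_compl A Q, ← mm_compl A (Q \ D)]; exact key _ hm

theorem mm_top {B Q : Finset α} (hB : B ⊆ Q) : 2 * S B = mm S B Q + bf S B Q := by
  have b1 := fun z => @hB z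
  have e1 : B ∩ Q = B := by ext z; grind [Finset.mem_compl]
  have e2 : Bᶜ ∩ Q = Q \ B := by ext z; grind [Finset.mem_compl]
  rw [mm, bf, e1, e2]
  ring

end Vale.Agent.P356H
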