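import Vale.Agent.P356G.Core2
import Vale.Agent.P356G.MomL
import Vale.Agent.P356E.Main
import Vale.Agent.P356H.SSA
import Vale.Agent.P356H.Sub

namespace Vale.Agent.P356H

open Matrix Vale.Agent.P356 Vale.Agent.P356F Vale.Agent.P356G Vale.Agent.P356E Filter

namespace Lat2A

/-- the clipped distance to a box -/
def hc (L x1 x2 y1 y2 T : ℕ) (z : St L) : ℕ := min (hb L x1 x2 y1 y2 z) T

theorem slab_hc {L x1 x2 y1 y2 T r : ℕ} (h : r < T) :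
    slab (hc L x1 x2 y1 y2 T) 0 (1 + r) = box L (x1 - r) (x2 + r) (y1 - r) (y2 + r) := by
  rw [← slab_box]
  ext z
  rw [mem_slab, mem_slab, hc]
  omega

theorem four {L x1 x2 y1 y2 T : ℕ} {F : Finset (St L) → ℝ} {M : ℝ}
    (hU : ∀ A B, F (A ∪ B) ≤ F A + F B) (hD : ∀ A B, F (A \ B) ≤ F A + F B) (h0 : F ∅ ≤ M)
    (h1 : F Finset.univ ≤ M)
    (h2 : ∀ r, r < T → F (box L (x1 - r) (x2 + r) (y1 - r) (y2 + r)) ≤ M) (x y z w : ℕ) :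
    F (slab (hc L x1 x2 y1 y2 T) x y ∪ slab (hc L x1 x2 y1 y2 T) z w) ≤ 4 * M := by
  have a : ∀ r, F (slab (hc L x1 x2 y1 y2 T) 0 r) ≤ M := fun r => by
    rcases Nat.eq_zero_or_pos r with rfl | hr
    · rwa [Finset.eq_empty_of_forall_notMem (s := slab _ 0 0) fun z hz => by
        rw [mem_slab] at hz
        omega]
    rcases le_or_gt r T with h | h
    · obtain ⟨r', rfl⟩ := Nat.exists_eq_add_of_le hr
      rw [slab_hc (by omega)]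
      exact h2 r' (by omega)
    · rwa [Finset.eq_univ_of_forall (s := slab _ 0 r) fun z => by
        rw [mem_slab, hc]
        omega]
  have b : ∀ x y, F (slab (hc L x1 x2 y1 y2 T) x y) ≤ 2 * M := fun x y => by
    have e : slab (hc L x1 x2 y1 y2 T) x y =
        slab (hc L x1 x2 y1 y2 T) 0 y \ slab (hc L x1 x2 y1 y2 T) 0 x := by
      ext u
      rw [Finset.mem_sdiff, mem_slab, mem_slab, mem_slab]
      omega
    rw [e]
    linarith [hD (slab (hc L x1 x2 y1 y2 T) 0 y) (slab (hc L x1 x2 y1 y2 T) 0 x), a x, a y]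
  linarith [hU (slab (hc L x1 x2 y1 y2 T) x y) (slab (hc L x1 x2 y1 y2 T) z w), b x y, b z w]

theorem nc_le {Λ : Type} [Fintype Λ] [DecidableEq Λ] (T : Finset (Finset Λ)) {A B C : Finset Λ}
    (h : ∀ X : Finset Λ, (X ⊆ A ∨ Disjoint X A) → (X ⊆ B ∨ Disjoint X B) →
      X ⊆ C ∨ Disjoint X C) : (ncross T C : ℝ) ≤ ncross T A + ncross T B := by
  have : ncross T C ≤ ncross T A + ncross T B := by
    refine le_trans (Finset.card_le_card fun X hX => ?_) (Finset.card_union_le _ _)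
    simp only [Finset.mem_union, Finset.mem_filter] at hX ⊢
    have := h X
    tauto
  exact_mod_cast this

theorem nc_union {Λ : Type} [Fintype Λ] [DecidableEq Λ] (T : Finset (Finset Λ))
    (A B : Finset Λ) : (ncross T (A ∪ B) : ℝ) ≤ ncross T A + ncross T B :=
  nc_le T fun X h1 h2 => by
    rcases h1 with h1 | h1
    · exact Or.inl (h1.trans Finset.subset_union_left)
    rcases h2 with h2 | h2
    · exact Or.inl (h2.trans Finset.subset_union_right)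
    exact Or.inr (Finset.disjoint_union_right.2 ⟨h1, h2⟩)

theorem nc_sdiff {Λ : Type} [Fintype Λ] [DecidableEq Λ] (T : Finset (Finset Λ))
    (A B : Finset Λ) : (ncross T (A \ B) : ℝ) ≤ ncross T A + ncross T B :=
  nc_le T fun X h1 h2 => by
    rcases h1 with h1 | h1
    · rcases h2 with h2 | h2
      · exact Or.inr (Finset.disjoint_of_subset_left h2 Finset.disjoint_sdiff)
      · exact Or.inl (Finset.subset_sdiff.2 ⟨h1, h2⟩)
    · exact Or.inr (Finset.disjoint_of_subset_right Finset.sdiff_subset h1)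

theorem clip {ι Λ Q : Type} [Fintype Λ] [DecidableEq Λ] [Fintype Q] [DecidableEq Q] [DecidableEq ι]
    {h : ι → Matrix (Λ → Q) (Λ → Q) ℂ} {Z : ι → Finset Λ} {I : Finset ι} {ht : Λ → ℕ}
    {T l1 s1 s2 : ℕ} {J : ℝ} (H : Terms h Z I ht T l1 s1 s2 J) :
    Terms h Z I (fun z => min (ht z) T) T l1 s1 s2 J :=
  ⟨H.ps, H.loc, fun i hi z hz => le_min (H.far i hi z hz) le_rfl, H.bd, H.card,
    fun i hi z hz z' hz' => by
      have := H.diam i hi z hz z' hz'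
      omega, H.deg⟩

theorem ev_poly (A : ℝ) (k : ℕ) {a : ℝ} (ha : 0 < a) :
    ∀ᶠ t : ℕ in atTop, A * (t : ℝ) ^ k ≤ Real.exp (a * t) := by
  have h := (isLittleO_pow_exp_pos_mul_atTop k ha).bound
    (show (0 : ℝ) < 1 / (|A| + 1) by positivity)
  filter_upwards [tendsto_natCast_atTop_atTop.eventually h] with t ht
  rw [Real.norm_of_nonneg (by positivity), Real.norm_of_nonneg (Real.exp_pos _).le, one_div,
    inv_mul_eq_div, le_div_iff₀ (by positivity)] at ht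
  have : A * (t : ℝ) ^ k ≤ (t : ℝ) ^ k * (|A| + 1) := by
    rw [mul_comm]
    exact mul_le_mul_of_nonneg_left (by linarith [le_abs_self A]) (by positivity)
  linarith

theorem ovl {n : Type} [Fintype n] {u v : n → ℂ} (hu : nsq u = 1) (hv : nsq v = 1)
    (h : nsq (u - v) ≤ 1 / 50) : 99 / 100 ≤ ‖star v ⬝ᵥ u‖ := by
  have e : nsq (u - v) = nsq u + nsq v - 2 * (star v ⬝ᵥ u).re := by
    simp only [nsq, dotProduct, Complex.re_sum, Finset.mul_sum, ← Finset.sum_add_distrib,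
      ← Finset.sum_sub_distrib]
    refine Finset.sum_congr rfl fun i _ => ?_
    simp only [Complex.sq_norm, Complex.normSq_apply, Pi.sub_apply, Pi.star_apply, Complex.sub_re,
      Complex.sub_im, Complex.mul_re, Complex.star_def, Complex.conj_re, Complex.conj_im]
    ring
  linarith [Complex.re_le_norm (star v ⬝ᵥ u)]

theorem sizes {t : ℕ} (ht : 1 ≤ t) {H0 : ℕ} (h : H0 = t ^ 19 * ((2 * t ^ 15 + 4) * t ^ 105)) :
    2 * H0 ≤ 12 * t ^ 144 ∧ t ^ 192 + 2 * (2 * H0 + 1 + t) ≤ 29 * t ^ 192 := by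
  have a1 : 1 ≤ t ^ 15 := Nat.one_le_pow _ _ ht
  have a2 : H0 ≤ t ^ 19 * ((6 * t ^ 15) * t ^ 105) := by
    rw [h]
    exact Nat.mul_le_mul_left _ (Nat.mul_le_mul_right _ (by omega))
  have a3 : t ^ 19 * ((6 * t ^ 15) * t ^ 105) = 6 * t ^ 139 := by ring
  have a4 : t ^ 139 ≤ t ^ 144 := Nat.pow_le_pow_right ht (by norm_num)
  have a5 : t ^ 144 ≤ t ^ 192 := Nat.pow_le_pow_right ht (by norm_num)
  have a6 : t ≤ t ^ 192 := Nat.le_self_pow (by norm_num) t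
  omega

theorem n1 {Cc t Lg : ℝ} (hC : 1 ≤ Cc) (h1 : 1 ≤ t) (h0 : 0 ≤ Lg) (hL : Lg ≤ 9 * t ^ 2)
    (h : 81 * Cc ≤ t) : Cc * Lg ^ 2 ≤ t ^ 105 := by
  have a1 : Cc * Lg ^ 2 ≤ Cc * (9 * t ^ 2) ^ 2 := by gcongr
  have a2 : 81 * Cc * t ^ 4 ≤ t * t ^ 4 := by gcongr
  have a3 : t ^ 5 ≤ t ^ 105 := pow_le_pow_right₀ h1 (by norm_num)
  linarith

theorem n2 {Cc t Lg S M Δ : ℝ} (hC : 1 ≤ Cc) (h1 : 1 ≤ t) (h0 : 0 ≤ Lg) (hL : Lg ≤ 9 * t ^ 2)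
    (hS0 : 0 ≤ S) (hS : S ≤ M * t ^ 195) (h : Cc * 9 ^ 7 * M ≤ Δ / 2 * t) :
    Cc * Lg ^ 7 * S ≤ Δ / 2 * (t ^ 105) ^ 2 := by
  have a1 : Cc * Lg ^ 7 * S ≤ Cc * (9 * t ^ 2) ^ 7 * (M * t ^ 195) := by gcongr
  have a2 : Cc * 9 ^ 7 * M * t ^ 209 ≤ Δ / 2 * t * t ^ 209 := by gcongr
  linarith

theorem n3 {t Lg S M M' D : ℝ} (h1 : 1 ≤ t) (h0 : 0 ≤ Lg) (hL : Lg ≤ 9 * t ^ 2) (hD : 0 < D)
    (hS0 : 0 ≤ S) (hS : S ≤ M' * t ^ 195) :
    4 * (M * t ^ 195) / t ^ 15 + Lg ^ 2 * S / t ^ 19 + Lg ^ 2 + (1 + 1) / (1 / (D * t ^ 96)) ≤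
      (4 * M + 81 * M' + 81 + 2 * D) * t ^ 180 := by
  have t0 : 0 < t := by linarith
  have a0 : Lg ^ 2 ≤ (9 * t ^ 2) ^ 2 := by gcongr
  have a1 : 4 * (M * t ^ 195) / t ^ 15 = 4 * M * t ^ 180 := by
    rw [div_eq_iff (by positivity)]
    ring
  have a2 : Lg ^ 2 * S / t ^ 19 ≤ 81 * M' * t ^ 180 := by
    rw [div_le_iff₀ (by positivity)]
    have : Lg ^ 2 * S ≤ (9 * t ^ 2) ^ 2 * (M' * t ^ 195) := by gcongr
    linarith
  have a3 : t ^ 4 ≤ t ^ 180 := pow_le_pow_right₀ h1 (by norm_num)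
  have a4 : D * t ^ 96 ≤ D * t ^ 180 :=
    mul_le_mul_of_nonneg_left (pow_le_pow_right₀ h1 (by norm_num)) hD.le
  rw [a1, one_div, div_inv_eq_mul]
  linarith

theorem n4 {k c D t n Δ : ℝ} (hk : 0 ≤ k) (hΔ : 0 < Δ) (h1 : 1 ≤ t) (hD : 4 ≤ D)
    (hD2 : k * c / Δ ≤ D) (hn : n ≤ c * t ^ 192) :
    k * (1 / (D * t ^ 96)) ^ 2 * n ≤ Δ ∧ 1 / (D * t ^ 96) ≤ 1 / 4 := by
  have t0 : 0 < t := by linarith
  have d0 : 0 < D := by linarith
  constructor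
  · have a1 : k * (1 / (D * t ^ 96)) ^ 2 * n ≤ k * (1 / (D * t ^ 96)) ^ 2 * (c * t ^ 192) := by
      gcongr
    have a2 : k * (1 / (D * t ^ 96)) ^ 2 * (c * t ^ 192) = k * c / (D * D) := by
      field_simp
    rw [div_le_iff₀ hΔ] at hD2
    have a3 : k * c / (D * D) ≤ Δ := by
      rw [div_le_iff₀ (by positivity)]
      nlinarith [mul_pos d0 hΔ]
    linarith
  · refine one_div_le_one_div_of_le (by norm_num) ?_
    nlinarith [one_le_pow₀ (n := 96) h1]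

theorem rp (x : ℝ) (hx : 0 ≤ x) (a b : ℕ) (y z : ℝ) (h : y * a = z * b) :
    (x ^ y) ^ a = (x ^ z) ^ b := by
  rw [← Real.rpow_natCast, ← Real.rpow_natCast, ← Real.rpow_mul hx, ← Real.rpow_mul hx, h]

theorem big (q R : ℕ) [NeZero q] {J Δ : ℝ} (hJ : 0 ≤ J) (hΔ : 0 < Δ) {C0 : ℝ} (hC0 : 0 ≤ C0)
    (HB0 : ∀ (L : ℕ) (Ω : Vec L q), Fam q R J Δ L Ω → ∀ l : ℕ, 1 ≤ l →
      BoxB Ω l (C0 * (l : ℝ) ^ (65 / 64 : ℝ))) :
    ∃ C : ℝ, 0 ≤ C ∧ ∀ᶠ t : ℕ in atTop, ∀ (L : ℕ) (Ω : Vec L q), Fam q R J Δ L Ω →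
      ∀ W x1 x2 y1 y2 : ℕ, 12 * t ^ 144 ≤ W → x2 ≤ x1 + t ^ 192 → y2 ≤ y1 + t ^ 192 →
        bf (fun A => entropy A Ω) (box L x1 x2 y1 y2)
          (box L (x1 - W) (x2 + W) (y1 - W) (y2 + W)) ≤ C * (t : ℝ) ^ 180 := by
  obtain ⟨Cc, hCc, hcore⟩ := core2
  obtain ⟨c, Ce, J1, hc0, hCe, happ⟩ := appr q R hJ hΔ
  obtain ⟨lam, hlam⟩ : ∃ lam, lam = Real.log 2 + Real.log q := ⟨_, rfl⟩
  have p1 : 0 ≤ 200 * Ce / Δ := by positivity
  have p2 : 0 ≤ 16 * Ce * lam ^ 2 / Δ := by positivity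
  obtain ⟨A, hA⟩ : ∃ A, A = 2 * Ce + 200 * Ce / Δ + 16 * Ce * lam ^ 2 / Δ := ⟨_, rfl⟩
  have hA0 : 0 ≤ A := by linarith
  obtain ⟨M, hM⟩ : ∃ M : ℝ, M = C0 * 2 ^ 195 := ⟨_, rfl⟩
  have hM0 : 0 ≤ M := by rw [hM]; positivity
  obtain ⟨kk, hkk⟩ : ∃ kk, kk = KK (Fin q) J ((2 * R + 1) ^ 2) := ⟨_, rfl⟩
  have hkk0 : 0 ≤ kk := hkk ▸ fid_KK_nonneg hJ _
  obtain ⟨c1, hc1⟩ : ∃ c1 : ℕ, c1 = 2 * R * 58 * 2 ^ ((2 * R + 1) ^ 2) := ⟨_, rfl⟩
  obtain ⟨D, hD⟩ : ∃ D : ℝ, D = 4 + kk * (4 * c1) / Δ := ⟨_, rfl⟩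
  have p3 : 0 ≤ kk * (4 * c1) / Δ := by positivity
  refine ⟨Cc * (4 * M + 81 * (M + 3) + 81 + 2 * D), by rw [hD]; positivity, ?_⟩
  filter_upwards [ev_poly (A * 841 ^ 3) 1152 hc0, ev_poly 841 384 (Real.log_pos one_lt_two),
    eventually_ge_atTop 1, eventually_ge_atTop q,
    tendsto_natCast_atTop_atTop.eventually_ge_atTop J1,
    tendsto_natCast_atTop_atTop.eventually_ge_atTop (81 * Cc),
    (tendsto_natCast_atTop_atTop.const_mul_atTop (half_pos hΔ)).eventually_ge_atTop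
      (Cc * 9 ^ 7 * (M + 3))] with t e1 e2 e3 e4 e5 e6 e7
  intro L Ω hF W x1 x2 y1 y2 hW hx hy
  have hΩ := fam_norm hF
  have hS := ssa hΩ
  have t1 : (1 : ℝ) ≤ t := by exact_mod_cast e3
  obtain ⟨H0, hH⟩ : ∃ H0, H0 = t ^ 19 * ((2 * t ^ 15 + 4) * t ^ 105) := ⟨_, rfl⟩
  obtain ⟨s1, s2⟩ := sizes e3 hH
  obtain ⟨N, hN⟩ : ∃ N, N = (t ^ 192 + 2 * (2 * H0 + 1 + t)) ^ 2 := ⟨_, rfl⟩
  obtain ⟨Lg, hLg⟩ : ∃ Lg, Lg = (2 * t + 1) ^ 2 := ⟨_, rfl⟩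
  have htL : t ≤ Lg := hLg ▸ le_trans (by omega) (Nat.le_self_pow (by norm_num) (2 * t + 1))
  have hL9 : (Lg : ℝ) ≤ 9 * (t : ℝ) ^ 2 := by
    rw [hLg]
    push_cast
    nlinarith
  have hN1 : (N : ℝ) ≤ 841 * (t : ℝ) ^ 384 := by
    have : N ≤ (29 * t ^ 192) ^ 2 := hN ▸ Nat.pow_le_pow_left s2 2
    calc (N : ℝ) ≤ ((29 * t ^ 192) ^ 2 : ℕ) := by exact_mod_cast this
      _ = _ := by push_cast; ring
  have hN2 : N ≤ 2 ^ Lg := by
    rw [mul_comm (Real.log 2), Real.exp_nat_mul, Real.exp_log two_pos] at e2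
    have : N ≤ 2 ^ t := by exact_mod_cast hN1.trans e2
    exact this.trans (Nat.pow_le_pow_right two_pos htL)
  have hVN : (t ^ 105) ^ 2 ≤ N := hN ▸ Nat.pow_le_pow_left
    ((Nat.pow_le_pow_right e3 (by norm_num)).trans (Nat.le_add_right _ _)) 2
  have hV1 : 1 ≤ t ^ 105 := Nat.one_le_pow _ _ e3
  have hN0 : 1 ≤ N := (Nat.one_le_pow _ _ hV1).trans hVN
  have hN0' : (1 : ℝ) ≤ N := by exact_mod_cast hN0
  obtain ⟨x, hx0, hxe⟩ : ∃ x : ℝ, 0 < x ∧ x = Real.exp (-(c * t)) := ⟨_, Real.exp_pos _, rfl⟩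
  have hsm : A * (N : ℝ) ^ 3 * x ≤ 1 := by
    have a1 : A * (N : ℝ) ^ 3 ≤ A * (841 * (t : ℝ) ^ 384) ^ 3 := by gcongr
    have a2 : A * (841 * (t : ℝ) ^ 384) ^ 3 = A * 841 ^ 3 * (t : ℝ) ^ 1152 := by ring
    rw [hxe, Real.exp_neg, ← div_eq_mul_inv, div_le_one (Real.exp_pos _)]
    linarith
  have b0 : 200 * (N * Ce * x) ≤ Δ := by
    have := lat_n4 hsm hA0 (a := 200 * Ce / Δ) (by linarith) hx0.le (Nat.cast_nonneg N)
      (le_self_pow₀ hN0' (by norm_num))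
    rw [div_mul_eq_mul_div, div_mul_eq_mul_div, div_le_one hΔ] at this
    linarith
  have b1 : 8 * (N * Ce * x) ≤ Δ := by
    have : 0 ≤ N * Ce * x := by positivity
    linarith
  have b2 : 4 * (4 * (N * Ce * x) / Δ) * (N : ℝ) ^ 2 * lam ^ 2 ≤ 1 := by
    have := lat_n4 hsm hA0 (a := 16 * Ce * lam ^ 2 / Δ) (by linarith) hx0.le (by positivity) le_rfl
    refine le_trans (le_of_eq ?_) this
    ring
  have b3 : 2 * (N * Ce * x) * ((t ^ 105 : ℕ) : ℝ) ^ 2 ≤ 1 := by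
    have a1 := lat_n4 hsm hA0 (a := 2 * Ce) (y := (N : ℝ) ^ 2) (by linarith) hx0.le
      (by positivity) (pow_le_pow_right₀ hN0' (by norm_num))
    have a0 : ((t ^ 105 : ℕ) : ℝ) ^ 2 ≤ N := by exact_mod_cast hVN
    have a2 : 2 * (N * Ce * x) * ((t ^ 105 : ℕ) : ℝ) ^ 2 ≤ 2 * (N * Ce * x) * N := by gcongr
    linarith
  have hcard : ∀ r, r ≤ 2 * H0 + 1 + t → (slab (hb L x1 x2 y1 y2) 0 r).card ≤ N :=
    fun r hr => (slab_card hx hy 0 r).trans (hN ▸ Nat.pow_le_pow_left (by omega) 2)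
  rw [hxe] at b1
  obtain ⟨h, Z, I, Ω', E, hT, hI, hGS, hE, hcl⟩ := happ L Ω hF (hb L x1 x2 y1 y2)
    (hb_lip L x1 x2 y1 y2) (2 * H0 + 1) t Lg N hLg.ge
    (e5.trans (by exact_mod_cast htL)) (hcard _ le_rfl) b1
  rw [← hxe] at hE hcl
  have hbox : ∀ r, r < 2 * H0 + 1 →
      entropy (box L (x1 - r) (x2 + r) (y1 - r) (y2 + r)) Ω ≤ M * (t : ℝ) ^ 195 := fun r hr => by
    have a1 : (2 * t) ^ 192 = 2 ^ 192 * t ^ 192 := mul_pow _ _ _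
    have a2 : 29 * t ^ 192 ≤ 2 ^ 192 * t ^ 192 := Nat.mul_le_mul_right _ (by norm_num)
    refine (HB0 L Ω hF ((2 * t) ^ 192) (Nat.one_le_pow _ _ (by omega)) _ _ _ _ (by omega)
      (by omega)).trans (le_of_eq ?_)
    rw [Nat.cast_pow, ← Real.rpow_natCast, ← Real.rpow_mul (Nat.cast_nonneg _),
      show ((192 : ℕ) : ℝ) * (65 / 64) = (195 : ℕ) by norm_num, Real.rpow_natCast, hM]
    push_cast
    ring
  have hX : slab (hc L x1 x2 y1 y2 (2 * H0 + 1)) 0 (H0 + 1) =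
      box L (x1 - H0) (x2 + H0) (y1 - H0) (y2 + H0) := by
    rw [add_comm H0 1, slab_hc (by omega)]
  have hS' : entropy (slab (hc L x1 x2 y1 y2 (2 * H0 + 1)) 0 (H0 + 1)) Ω' + 1 ≤
      (M + 3) * (t : ℝ) ^ 195 := by
    have a1 := (lat_close hGS.1 hΩ hN0 hcl (hlam ▸ b2) _ (hcard (1 + H0) (by omega))).1
    rw [slab_box] at a1
    rw [hX]
    linarith [hbox H0 (by omega), one_le_pow₀ (n := 195) t1]
  have hS0 : 0 ≤ entropy (slab (hc L x1 x2 y1 y2 (2 * H0 + 1)) 0 (H0 + 1)) Ω' + 1 := by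
    linarith [ent_nonneg (slab (hc L x1 x2 y1 y2 (2 * H0 + 1)) 0 (H0 + 1)) hGS.1]
  have hMt : 0 ≤ M * (t : ℝ) ^ 195 := by positivity
  have d0 : 0 < D := by linarith
  have hs0 : 0 < 1 / (D * (t : ℝ) ^ 96) := by positivity
  have hnc : ∀ x y z w, (ncross (supports L R) (slab (hc L x1 x2 y1 y2 (2 * H0 + 1)) x y ∪
      slab (hc L x1 x2 y1 y2 (2 * H0 + 1)) z w) : ℝ) ≤ 4 * c1 * (t : ℝ) ^ 192 := fun x y z w => by
    rw [mul_assoc]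
    refine four (F := fun A => (ncross (supports L R) A : ℝ)) (nc_union _) (nc_sdiff _)
      (by simp only [ncross]; simp; positivity) (by simp only [ncross]; simp; positivity)
      (fun r hr => ?_) x y z w
    have a1 : ncross (supports L R) (box L (x1 - r) (x2 + r) (y1 - r) (y2 + r)) ≤ c1 * t ^ 192 := by
      refine (ncross_box _ _ _ _ _ _).trans ?_
      rw [hc1, mul_right_comm _ _ (t ^ 192), mul_assoc (2 * R) 58]
      exact Nat.mul_le_mul_right _ (Nat.mul_le_mul_left _ (by omega))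
    exact_mod_cast a1
  obtain ⟨g, E0, hg, hgap⟩ := hF
  have G := gapped_of g hg Ω hgap.1 hgap.2.1 hgap.2.2
  have hn4 := fun x y z w => n4 hkk0 hΔ t1 (D := D) (by linarith) (by linarith) (hnc x y z w)
  have hmain := hcore (St L) (Fin q) (Option (St L)) h Z I (hc L x1 x2 y1 y2 (2 * H0 + 1)) H0
    (t ^ 105) (t ^ 19) (t ^ 15) Lg E (Δ / 2) (1 / (D * (t : ℝ) ^ 96)) 1 (4 * (M * (t : ℝ) ^ 195))
    Ω' Ω (clip hT) (fun z => min_le_right _ _) hGS (half_pos hΔ) (e3.trans htL)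
    (Nat.one_le_pow _ _ e3) (Nat.one_le_pow _ _ e3) hH.ge
    (by rw [Nat.cast_pow]; exact n1 hCc t1 (Nat.cast_nonneg _) hL9 e6)
    (((Nat.le_self_pow two_ne_zero _).trans hVN).trans hN2) (hI.trans hN2)
    (by rw [Fintype.card_fin]; exact (e4.trans htL).trans Nat.lt_two_pow_self.le)
    (le_trans (by gcongr) b3)
    (by rw [Nat.cast_pow]; exact n2 hCc t1 (Nat.cast_nonneg _) hL9 hS0 hS' e7) hΩ
    (ovl hGS.1 hΩ (hcl.trans (by rw [div_le_iff₀ hΔ]; linarith))) hs0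
    (by linarith [(hn4 0 0 0 0).2]) zero_le_one hS.sub
    fun x y z w => ⟨mom_gapped G hJ hΔ _ hs0 (hn4 x y z w).2 (hkk ▸ (hn4 x y z w).1),
      four (F := fun A => entropy A Ω) hS.union_le hS.sdiff_le (hS.empty.le.trans hMt)
        (hS.univ.le.trans hMt) hbox x y z w⟩
  have hfin := n3 (M := M) t1 (Nat.cast_nonneg Lg) hL9 d0 hS0 hS'
  rw [Nat.cast_pow, Nat.cast_pow] at hmain
  have y0 : slab (hc L x1 x2 y1 y2 (2 * H0 + 1)) 0 1 = box L x1 x2 y1 y2 :=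
    slab_hc (r := 0) (by omega)
  have y1' : slab (hc L x1 x2 y1 y2 (2 * H0 + 1)) (2 * H0 + 1) (2 * H0 + 2) =
      (box L (x1 - 2 * H0) (x2 + 2 * H0) (y1 - 2 * H0) (y2 + 2 * H0))ᶜ := by
    rw [← slab_hc (T := 2 * H0 + 1) (by omega)]
    ext z
    rw [Finset.mem_compl, mem_slab, mem_slab, hc]
    omega
  rw [y0, y1'] at hmain
  have y2' : MI (box L x1 x2 y1 y2,
      (box L (x1 - 2 * H0) (x2 + 2 * H0) (y1 - 2 * H0) (y2 + 2 * H0))ᶜ) Ω =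
      bf (fun A => entropy A Ω) (box L x1 x2 y1 y2)
        (box L (x1 - 2 * H0) (x2 + 2 * H0) (y1 - 2 * H0) (y2 + 2 * H0)) := by
    have a1 := hS.compl (box L (x1 - 2 * H0) (x2 + 2 * H0) (y1 - 2 * H0) (y2 + 2 * H0))
    have a2 := hS.compl (box L (x1 - 2 * H0) (x2 + 2 * H0) (y1 - 2 * H0) (y2 + 2 * H0) \
      box L x1 x2 y1 y2)
    rw [Finset.sdiff_eq_inter_compl, Finset.compl_inter, compl_compl, Finset.union_comm,
      ← Finset.sdiff_eq_inter_compl] at a2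
    simp only [MI, bf] at a1 a2 ⊢
    rw [a1, a2]
  rw [y2'] at hmain
  refine (bf_mono hS subset_rfl (fun z hz => ?_) fun z hz => ?_).trans (hmain.trans ?_)
  · rw [geo_mem] at hz ⊢
    omega
  · rw [geo_mem] at hz ⊢
    omega
  · rw [mul_assoc]
    exact mul_le_mul_of_nonneg_left hfin (by linarith)

end Lat2A

theorem hbm (q R : ℕ) [NeZero q] {J Δ : ℝ} (hJ : 0 ≤ J) (hΔ : 0 < Δ) : ∃ C : ℝ, 1 ≤ C ∧
    ∀ (L : ℕ) (Ω : Vec L q), Fam q R J Δ L Ω →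
      HB L (fun A => entropy A Ω) C ∧ HM L (fun A => entropy A Ω) C := by
  obtain ⟨C1, hC1, hR⟩ := lat q R hJ hΔ
  obtain ⟨a, ha, H⟩ := start q R hJ hΔ
  obtain ⟨C0, hC0, HB0⟩ := boot hC1 hR ha H (show (0 : ℝ) < 1 / 64 by norm_num)
  rw [show (1 : ℝ) + 1 / 64 = 65 / 64 by norm_num] at HB0
  obtain ⟨C2, hC2, hbig⟩ := Lat2A.big q R hJ hΔ hC0 HB0
  obtain ⟨t0, ht0⟩ := eventually_atTop.1 hbig
  have p1 : 0 ≤ C2 * 2 ^ 180 := by positivity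
  have p2 : 0 ≤ 2 * C0 * (t0 : ℝ) ^ 192 := by positivity
  have p3 : (0 : ℝ) ≤ 12 * 2 ^ 144 := by positivity
  obtain ⟨C, hC⟩ : ∃ C : ℝ, C = 1 + C0 + C2 * 2 ^ 180 + 2 * C0 * (t0 : ℝ) ^ 192 + 12 * 2 ^ 144 :=
    ⟨_, rfl⟩
  refine ⟨C, by linarith, fun L Ω hF => ⟨fun l x1 x2 y1 y2 hl hx hy => ?_,
    fun l W x1 x2 y1 y2 hl hW hx hy => ?_⟩⟩
  · exact (HB0 L Ω hF l hl x1 x2 y1 y2 hx hy).trans
      (mul_le_mul_of_nonneg_right (by linarith) (by positivity))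
  have l1 : (1 : ℝ) ≤ l := by exact_mod_cast hl
  have l0 : (0 : ℝ) ≤ l := Nat.cast_nonneg l
  obtain ⟨u, hu⟩ : ∃ u, u = (l : ℝ) ^ (1 / 192 : ℝ) := ⟨_, rfl⟩
  have u1 : 1 ≤ u := hu ▸ Real.one_le_rpow l1 (by norm_num)
  have e1 : u ^ 192 = l := by
    rw [hu, Lat2A.rp _ l0 192 1 _ 1 (by norm_num), Real.rpow_one, pow_one]
  have e2 : u ^ 180 = (l : ℝ) ^ (15 / 16 : ℝ) := by
    rw [hu, Lat2A.rp _ l0 180 1 _ (15 / 16) (by norm_num), pow_one]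
  have e3 : u ^ 144 = (l : ℝ) ^ (3 / 4 : ℝ) := by
    rw [hu, Lat2A.rp _ l0 144 1 _ (3 / 4) (by norm_num), pow_one]
  have e4 : u ^ 195 = (l : ℝ) ^ (65 / 64 : ℝ) := by
    rw [hu, Lat2A.rp _ l0 195 1 _ (65 / 64) (by norm_num), pow_one]
  obtain ⟨t, ht⟩ : ∃ t, t = ⌈u⌉₊ := ⟨_, rfl⟩
  have a1 : u ≤ t := ht ▸ Nat.le_ceil u
  have a2 : (t : ℝ) ≤ 2 * u := by
    have : (t : ℝ) < u + 1 := ht ▸ Nat.ceil_lt_add_one (by linarith)
    linarith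
  have a3 : (l : ℝ) ≤ (t : ℝ) ^ 192 := by
    rw [← e1]
    gcongr
  have a4 : l ≤ t ^ 192 := by exact_mod_cast a3
  rw [← e2]
  rw [← e3] at hW
  have u0 : 0 ≤ u ^ 180 := by positivity
  rcases le_or_gt t0 t with h | h
  · have b1 : (t : ℝ) ^ 144 ≤ (2 * u) ^ 144 := by gcongr
    have b2 : (t : ℝ) ^ 180 ≤ (2 * u) ^ 180 := by gcongr
    rw [mul_pow] at b1 b2
    have b3 : 12 * 2 ^ 144 * u ^ 144 ≤ C * u ^ 144 :=
      mul_le_mul_of_nonneg_right (by linarith) (by positivity)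
    have b4 : 12 * t ^ 144 ≤ W := by
      have : 12 * (t : ℝ) ^ 144 ≤ W := by linarith
      exact_mod_cast this
    refine (ht0 t h L Ω hF W x1 x2 y1 y2 b4 (by omega) (by omega)).trans
      ((mul_le_mul_of_nonneg_left b2 hC2).trans ?_)
    rw [← mul_assoc]
    exact mul_le_mul_of_nonneg_right (by linarith) u0
  · have b1 := HB0 L Ω hF l hl x1 x2 y1 y2 hx hy
    have b2 : u ≤ t0 := a1.trans (by exact_mod_cast h.le)
    have b3 : u ^ 15 ≤ (t0 : ℝ) ^ 192 :=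
      (pow_le_pow_right₀ u1 (by norm_num)).trans (pow_le_pow_left₀ (by linarith) b2 192)
    have b4 : C0 * (u ^ 15 * u ^ 180) ≤ C0 * ((t0 : ℝ) ^ 192 * u ^ 180) := by gcongr
    have b5 : 2 * C0 * (t0 : ℝ) ^ 192 * u ^ 180 ≤ C * u ^ 180 :=
      mul_le_mul_of_nonneg_right (by linarith) u0
    rw [← e4] at b1
    refine (bf_le (ssa (fam_norm hF)) fun z hz => ?_).trans (by linarith)
    rw [geo_mem] at hz ⊢
    omega

end Vale.Agent.P356H
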