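import Vale.Agent.P356H.Lat2
import Vale.Agent.P356H.Comb
import Vale.Agent.P356H.SSA
import Vale.Agent.P356E.Start

namespace Vale.Agent.P356H

open Vale.Agent.P356 Vale.Agent.P356E

theorem area (q R : ℕ) [NeZero q] {J Δ : ℝ} (hJ : 0 ≤ J) (hΔ : 0 < Δ) :
    ∃ C : ℝ, ∀ (L : ℕ) (Ω : Vec L q), Fam q R J Δ L Ω → ∀ A : Finset (St L),
      entropy A Ω ≤ C * (bdry A : ℝ) := by
  obtain ⟨C, hC, H⟩ := hbm q R hJ hΔ
  obtain ⟨C', H'⟩ := comb hC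
  exact ⟨C', fun L Ω hF A => H' L _ (ssa (fam_norm hF)) (H L Ω hF).1 (H L Ω hF).2 A⟩

end Vale.Agent.P356H
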