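import Vale.Agent.P356H.Defs

namespace Vale.Agent.P356H

open Vale.Agent.P356 Vale.Agent.P356E

theorem ring_same {L : ℕ} {A T : Finset (St L)} (h : eS A T = 0) {u v : St L}
    (h1 : ∀ w, finBtw u v w → w ∈ T) (h2 : ∀ w, finBtw v u w → w ∈ T) : u ∈ A ↔ v ∈ A := by
  have key : ∀ u v : St L, (∀ w, finBtw u v w → w ∈ T) → u ∈ A → v ∈ A := fun u v h1 hu => by
    by_contra hv
    obtain ⟨a, b, ha, hb, h3, h4⟩ := fin_edge A v hv _ u hu rfl
    unfold eS at h
    exact Finset.card_ne_zero.2 ⟨(a, b), Finset.mem_filter.2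
      ⟨Finset.mem_univ _, h1 a h4, h3, iff_of_true ha hb⟩⟩ h
  exact ⟨key u v h1, key v u h2⟩

theorem ring_ext {L r : ℕ} (hL : 2 * r + 2 ≤ L) (a : Fin L) :
    ∃ i : Fin L, i.val = a.val + (r + 1) ∨ i.val + (r + 1) = a.val := by
  by_cases h : a.val + (r + 1) < L
  · exact ⟨⟨_, h⟩, Or.inl rfl⟩
  · exact ⟨⟨a.val - (r + 1), by omega⟩, Or.inr (by simp only; omega)⟩

theorem ring_sq {L r r' : ℕ} (z : St L) (h : r ≤ r') : geoSq L r z ⊆ geoSq L r' z := fun y hy => by
  rw [mem_sq] at hy ⊢
  omega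

/-- The ring is a union of at most four segments (rows `z.2 ± (r + 1)`, columns `z.1 ± (r + 1)`);
since `2 r + 2 ≤ L` there is at least one row and one column, and rows meet columns in the corners.
If no edge counted by `eS` starts in the ring, every segment has one colour (`fin_edge` for `A`:
the start of the edge lies between the two points). -/
theorem ring_mono {L : ℕ} (A : Finset (St L)) (z : St L) {r : ℕ} (hL : 2 * r + 2 ≤ L)
    (h : eS A (geoSq L (r + 1) z \ geoSq L r z) = 0) :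
    Mono A (geoSq L (r + 1) z \ geoSq L r z) := by
  obtain ⟨i, hi⟩ := ring_ext hL z.1
  obtain ⟨j, hj⟩ := ring_ext hL z.2
  have key : ∀ u ∈ geoSq L (r + 1) z \ geoSq L r z, (u ∈ A ↔ (i, j) ∈ A) := by
    intro u hu
    rw [Finset.mem_sdiff, mem_sq, mem_sq] at hu
    by_cases h1 : u.1.val = z.1.val + (r + 1) ∨ u.1.val + (r + 1) = z.1.val
    · refine (ring_same h (v := (u.1, j)) ?_ ?_).trans (ring_same h ?_ ?_) <;>
      · intro w hw
        simp only [finBtw] at hw
        rw [Finset.mem_sdiff, mem_sq, mem_sq]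
        omega
    · refine (ring_same h (v := (i, u.2)) ?_ ?_).trans (ring_same h ?_ ?_) <;>
      · intro w hw
        simp only [finBtw] at hw
        rw [Finset.mem_sdiff, mem_sq, mem_sq]
        omega
  by_cases hc : (i, j) ∈ A
  · exact Or.inl fun u hu => (key u hu).2 hc
  · exact Or.inr fun u hu => Finset.mem_compl.2 fun h1 => hc ((key u hu).1 h1)

/-- if the ring avoids the colour `B`, then `B ∩ geoSq L r z` is closed in `B` -/
theorem ring_in {L : ℕ} {A : Finset (St L)} (hA : Uns A) (z : St L) {r : ℕ}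
    (h : Mono A (geoSq L (r + 1) z \ geoSq L r z)) (h' : ¬ Mono A (geoSq L r z)) :
    A ⊆ geoSq L r z ∨ Aᶜ ⊆ geoSq L r z := by
  have key : ∀ B, B = A ∨ B = Aᶜ → geoSq L (r + 1) z \ geoSq L r z ⊆ Bᶜ →
      geoSq L r z ⊆ Bᶜ ∨ B ⊆ geoSq L r z := fun B hB hr => by
    rcases hA B hB (B ∩ geoSq L r z) Finset.inter_subset_left (fun u hu v hv huv => by
      refine Finset.mem_inter.2 ⟨hv, ?_⟩
      by_contra h1
      refine Finset.mem_compl.1 (hr (Finset.mem_sdiff.2 ⟨?_, h1⟩)) hv
      have h2 := (Finset.mem_inter.1 hu).2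
      rw [mem_sq] at h2 ⊢
      unfold dist1 at huv
      omega) with h1 | h1
    · refine Or.inl fun u hu => Finset.mem_compl.2 fun h2 => ?_
      have h3 : u ∈ B ∩ geoSq L r z := Finset.mem_inter.2 ⟨h2, hu⟩
      rw [h1] at h3
      exact Finset.notMem_empty _ h3
    · exact Or.inr (Finset.inter_eq_left.1 h1)
  rcases h with h | h
  · rcases key Aᶜ (Or.inr rfl) (by rwa [compl_compl]) with h1 | h1
    · exact absurd (Or.inl (by rwa [compl_compl] at h1)) h'
    · exact Or.inr h1
  · rcases key A (Or.inl rfl) h with h1 | h1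
    · exact absurd (Or.inr h1) h'
    · exact Or.inl h1

/-- induction on `k` with `eS_union`, `ring_mono`, `ring_in` -/
theorem ring_cnt {L : ℕ} {A : Finset (St L)} (hA : Uns A) (z : St L) {r : ℕ}
    (h' : ¬ Mono A (geoSq L r z)) (k : ℕ) (hL : 2 * (r + k) ≤ L) :
    k ≤ eS A (geoSq L (r + k) z) ∨ A ⊆ geoSq L (r + k) z ∨ Aᶜ ⊆ geoSq L (r + k) z := by
  induction k with
  | zero => exact Or.inl (Nat.zero_le _)
  | succ k ih =>
    have hs : geoSq L (r + k) z ⊆ geoSq L (r + k + 1) z := ring_sq z (Nat.le_succ _)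
    rw [← add_assoc]
    rcases ih (by omega) with h1 | h1
    · by_cases h2 : eS A (geoSq L (r + k + 1) z \ geoSq L (r + k) z) = 0
      · exact Or.inr ((ring_in hA z (ring_mono A z (by omega) h2)
          fun hm => h' (hm.sub (ring_sq z (Nat.le_add_right _ _)))).imp
          (fun h => h.trans hs) fun h => h.trans hs)
      · have h3 := eS_union A (Finset.disjoint_sdiff (s := geoSq L (r + k) z)
          (t := geoSq L (r + k + 1) z))
        rw [Finset.union_sdiff_of_subset hs] at h3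
        exact Or.inl (by omega)
    · exact Or.inr (h1.imp (fun h => h.trans hs) fun h => h.trans hs)

end Vale.Agent.P356H
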