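import Vale.Agent.P356G.SCa

namespace Vale.Agent.P356H

open Matrix Vale.Agent.P356 Vale.Agent.P356G

open scoped MatrixOrder Matrix.Norms.L2Operator ComplexOrder in
theorem ssa0_log {n : Type} [Fintype n] [DecidableEq n] {A : Matrix n n ℂ} (hA : A.IsHermitian) :
    hlog A = CFC.log A := by
  rw [CFC.log, hA.cfc_eq, hlog, hf, dif_pos hA, IsHermitian.cfc, Unitary.conjStarAlgAut_apply]
  rfl

open scoped MatrixOrder Matrix.Norms.L2Operator ComplexOrder in
/-- operator monotonicity of the logarithm: `CFC.log_le_log` with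
`open scoped MatrixOrder Matrix.Norms.L2Operator ComplexOrder`, `Matrix.IsHermitian.cfc_eq`,
`Matrix.le_iff`, `pd_iff`, `ps_iff` (`hlog A = CFC.log A` after unfolding `hf`, `fn`) -/
theorem log_mono {n : Type} [Fintype n] [DecidableEq n] {A B : Matrix n n ℂ} (hA : Pd A)
    (hB : Pd B) (h : Le A 1 B) (v : n → ℂ) : qf (hlog A) v ≤ qf (hlog B) v := by
  have h1 : A ≤ B := by
    rw [Matrix.le_iff, ← ps_iff]
    refine ⟨hB.1.sub hA.1, fun w => ?_⟩
    have h2 := h w
    rw [qf_sub]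
    linarith
  have h2 : CFC.log A ≤ CFC.log B :=
    CFC.log_le_log h1 ((pd_iff A).1 hA).isStrictlyPositive
  rw [← ssa0_log hA.1, ← ssa0_log hB.1, Matrix.le_iff, ← ps_iff] at h2
  have h3 := h2.2 v
  rw [qf_sub] at h3
  linarith

theorem ssa0_pd {n : Type} [Fintype n] [DecidableEq n] {c : Matrix n n ℂ} (hc : Pd c) :
    Pd (cpw c (-1)) := by
  have h := cpw_pd hc.1 (-1)
  rwa [Complex.ofReal_neg, Complex.ofReal_one] at h

theorem ssa0_sq {n : Type} [Fintype n] [DecidableEq n] {a c : Matrix n n ℂ} (ha : Pd a)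
    (hc : Pd c) (h : Commute a c) (w : n → ℂ) :
    qf (a * cpw c (-1)) w = nsq ((cpw a (1 / 2) * cpw c (-1 / 2)) *ᵥ w) := by
  have e : cpw c (-1) = cpw c (-1 / 2) * cpw c (-1 / 2) := by
    rw [← cpw_add hc.1]
    norm_num
  rw [← qf_ct_mul, conjTranspose_mul, cpw_half_herm, cpw_nhalf_herm, Matrix.mul_assoc,
    ← Matrix.mul_assoc (cpw a (1 / 2)), cpw_half ha, ← Matrix.mul_assoc,
    ← (cpw_comm h _).eq, Matrix.mul_assoc, ← e]

theorem ssa0_div {n : Type} [Fintype n] [DecidableEq n] {a c : Matrix n n ℂ} (ha : Pd a)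
    (hc : Pd c) (h : Commute a c) (w : n → ℂ) :
    qf (hlog (a * cpw c (-1))) w = qf (hlog a) w - qf (hlog c) w := by
  have h1 := hlog_mul hc (ssa0_pd hc) (cpw_comm (Commute.refl c) _)
  rw [(cpw_inv hc).2, hlog_one] at h1
  rw [hlog_mul ha (ssa0_pd hc) (cpw_comm h _), qf_add, ← neg_eq_of_add_eq_zero_right h1.symm,
    qf_neg, sub_eq_add_neg]

/-- `P R R P ≤ 1` gives `R R ≤ P⁻¹ P⁻¹`; here `P = a ^ (1/2) c ^ (-1/2)`, `R = b ^ (-1/2) d ^ (1/2)`;
`hlog_mul`, `hlog (cpw X (-1)) = - hlog X` (`hf_comp`), `log_mono` -/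
theorem log_four {n : Type} [Fintype n] [DecidableEq n] {a b c d : Matrix n n ℂ} (ha : Pd a)
    (hb : Pd b) (hc : Pd c) (hd : Pd d) (hac : Commute a c) (hbd : Commute b d) (hbc : Commute b c)
    (h : Bd (cpw a (1 / 2) * cpw b (-1 / 2) * (cpw c (-1 / 2) * cpw d (1 / 2))) 1) (v : n → ℂ) :
    qf (hlog a) v + qf (hlog d) v ≤ qf (hlog b) v + qf (hlog c) v := by
  have e : cpw a (1 / 2) * cpw b (-1 / 2) * (cpw c (-1 / 2) * cpw d (1 / 2)) *
      (cpw b (1 / 2) * cpw d (-1 / 2)) = cpw a (1 / 2) * cpw c (-1 / 2) := by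
    have c1 : Commute (cpw d (1 / 2)) (cpw b (1 / 2)) := cpw_comm (cpw_comm hbd _).symm _
    have c2 : Commute (cpw c (-1 / 2)) (cpw b (1 / 2)) := cpw_comm (cpw_comm hbc _).symm _
    rw [Matrix.mul_assoc, Matrix.mul_assoc (cpw c _), ← Matrix.mul_assoc (cpw d _), c1.eq,
      Matrix.mul_assoc (cpw b _), (cpw_half_inv hd.1).1, Matrix.mul_one, c2.eq, Matrix.mul_assoc,
      ← Matrix.mul_assoc (cpw b _), (cpw_half_inv hb.1).2, Matrix.one_mul]
  have h1 := log_mono (ha.mul (ssa0_pd hc) (cpw_comm hac _)) (hb.mul (ssa0_pd hd) (cpw_comm hbd _))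
    (fun w => by
      have h2 := h.nsq ((cpw b (1 / 2) * cpw d (-1 / 2)) *ᵥ w)
      rw [mulVec_mulVec, e, one_pow] at h2
      rw [ssa0_sq ha hc hac, ssa0_sq hb hd hbd]
      exact h2) v
  rw [ssa0_div ha hc hac, ssa0_div hb hd hbd] at h1
  linarith

variable {Λ Q : Type} [Fintype Λ] [DecidableEq Λ] [Fintype Q] [DecidableEq Q] [Nonempty Q]

/-- `ent_basis`, `rg = lift (fr V (α + β l))`, `hf_lift`, `hf_fn`, `ip_lift`; lower bound `bip_log`
summed (`∑ (α + β l i) = 1`), upper bound `- l log (α + β l) ≤ negMulLog l - l log β` -/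
theorem ent_rg (Y : Finset Λ) {ψ : (Λ → Q) → ℂ} (hψ : nsq ψ = 1) {α β : ℝ} (hα : 0 < α)
    (hβ : 0 < β) (h : α * (Fintype.card Q : ℝ) ^ Y.card + β = 1) :
    entropy Y ψ ≤ -qf (hlog (rg α β Y ψ)) ψ ∧
      -qf (hlog (rg α β Y ψ)) ψ ≤ entropy Y ψ - Real.log β := by
  obtain ⟨V, l, hV, h1, h2, h3, h4⟩ := ent_basis Y hψ
  have e1 : rg α β Y ψ = lift Y (fr V fun i => α + β * l i) := by
    rw [rg, mg, ← lift_one Y, ← SCa0A.lift_lin, h1, fr, fr, ← fn_one hV, ← fn_smul, ← fn_smul,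
      ← fn_add]
    simp only [mul_one, Complex.ofReal_add, Complex.ofReal_mul]
  have e2 : qf (hlog (rg α β Y ψ)) ψ = ∑ i, l i * Real.log (α + β * l i) := by
    rw [e1, hlog, hf_lift Y (fr_ct V _), hf_fn hV, qf, ip_lift, ← rho_amp, h1]
    change (trace (fr V (fun i => Real.log (α + β * l i)) * fr V l)).re = _
    rw [fr_mul hV, ent_trace_fr hV, Complex.ofReal_re]
    exact Finset.sum_congr rfl fun i _ => mul_comm _ _
  have hp : ∀ i, 0 < α + β * l i := fun i => add_pos_of_pos_of_nonneg hα (mul_nonneg hβ.le (h2 i))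
  rw [e2, h4]
  constructor
  · have h5 := Finset.sum_le_sum fun i (_ : i ∈ Finset.univ) => bip_log (h2 i) (hp i)
    rw [Finset.sum_add_distrib, Finset.sum_sub_distrib, Finset.sum_add_distrib, ← Finset.mul_sum,
      h3, Finset.sum_const, Finset.card_univ, nsmul_eq_mul, card_in] at h5
    linarith
  · have h5 : ∀ i, l i * Real.log β - Real.negMulLog (l i) ≤ l i * Real.log (α + β * l i) := by
      intro i
      rcases (h2 i).eq_or_lt with h6 | h6
      · rw [← h6]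
        simp
      · have h7 := Real.log_le_log (mul_pos hβ h6) (le_add_of_nonneg_left hα.le)
        rw [Real.log_mul hβ.ne' h6.ne'] at h7
        have h8 := mul_le_mul_of_nonneg_left h7 h6.le
        rw [Real.negMulLog]
        linarith
    have h6 := Finset.sum_le_sum fun i (_ : i ∈ Finset.univ) => h5 i
    rw [Finset.sum_sub_distrib, ← Finset.sum_mul, h3] at h6
    linarith

end Vale.Agent.P356H
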