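import Vale.Agent.P356G.SCa

namespace Vale.Agent.P356H

open Matrix Vale.Agent.P356 Vale.Agent.P356G

variable {Λ Q : Type} [Fintype Λ] [DecidableEq Λ] [Fintype Q] [DecidableEq Q] [Nonempty Q]

/-- matrix units on `B` -/
def un (B : Finset Λ) (i j : {z // z ∈ B} → Q) : Matrix (Λ → Q) (Λ → Q) ℂ := lift B (single i j 1)

/-- trace over `B`, tensored with the identity -/
def tw (B : Finset Λ) (M : Matrix (Λ → Q) (Λ → Q) ℂ) : Matrix (Λ → Q) (Λ → Q) ℂ :=
  ∑ i, ∑ j, un B i j * M * un B j i

omit [Nonempty Q] in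
theorem ssa1_left (B : Finset Λ) (i j : {z // z ∈ B} → Q) (M : Matrix (Λ → Q) (Λ → Q) ℂ)
    (s v : Λ → Q) :
    (un B i j * M) s v = if res B s = i then M (glue B j (cores B s)) v else 0 := by
  rw [mul_apply, Finset.sum_eq_single_of_mem (glue B j (cores B s)) (Finset.mem_univ _)]
  · simp only [un, lift, res_glue, cores_glue, single_apply, if_true, and_true, ite_mul, one_mul,
      zero_mul, eq_comm (a := i)]
  · intro u _ hu
    simp only [un, lift, single_apply]
    split_ifs with h1 h2
    · exact (hu (by rw [h2.2, h1, glue_res])).elim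
    · exact zero_mul _
    · exact zero_mul _

omit [Nonempty Q] in
theorem ssa1_right (B : Finset Λ) (i j : {z // z ∈ B} → Q) (M : Matrix (Λ → Q) (Λ → Q) ℂ)
    (u t : Λ → Q) :
    (M * un B j i) u t = if res B t = i then M u (glue B j (cores B t)) else 0 := by
  rw [mul_apply, Finset.sum_eq_single_of_mem (glue B j (cores B t)) (Finset.mem_univ _)]
  · simp only [un, lift, res_glue, cores_glue, single_apply, if_true, true_and, mul_ite, mul_one,
      mul_zero, eq_comm (a := i)]
  · intro v _ hv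
    simp only [un, lift, single_apply]
    split_ifs with h1 h2
    · exact (hv (by rw [h2.1, ← h1, glue_res])).elim
    · exact mul_zero _
    · exact mul_zero _

/-- the entries of the trace -/
theorem tw_apply (B : Finset Λ) (M : Matrix (Λ → Q) (Λ → Q) ℂ) (s t : Λ → Q) :
    tw B M s t = if res B s = res B t then
      ∑ j, M (glue B j (cores B s)) (glue B j (cores B t)) else 0 := by
  simp only [tw, Matrix.sum_apply, ssa1_right, ssa1_left]
  rw [Finset.sum_comm]
  simp only [Finset.sum_ite_eq, Finset.mem_univ, if_true]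
  split_ifs
  · rfl
  · exact Finset.sum_const_zero

theorem tw_one (B : Finset Λ) :
    tw B (1 : Matrix (Λ → Q) (Λ → Q) ℂ) = ((Fintype.card Q : ℂ) ^ B.card) • 1 := by
  ext s t
  rw [tw_apply, Matrix.smul_apply]
  by_cases h : s = t
  · subst h
    simp
  · rw [one_apply_ne h, smul_zero]
    split_ifs with h1
    · refine Finset.sum_eq_zero fun j _ => one_apply_ne fun h2 => h (loc_ext B h1 ?_)
      rw [← cores_glue B j (cores B s), h2, cores_glue]
    · rfl

/-- `Loc.comm` with the matrix units -/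
theorem tw_conj (B : Finset Λ) {X Y : Matrix (Λ → Q) (Λ → Q) ℂ} (hX : Loc (fun z => z ∉ B) X)
    (hY : Loc (fun z => z ∉ B) Y) (M : Matrix (Λ → Q) (Λ → Q) ℂ) :
    tw B (X * M * Y) = X * tw B M * Y := by
  simp only [tw, Finset.mul_sum, Finset.sum_mul]
  refine Finset.sum_congr rfl fun i _ => Finset.sum_congr rfl fun j _ => ?_
  have h1 : un B i j * X = X * un B i j := (loc_lift B _).comm hX fun _ h => not_not.2 h
  have h2 : un B j i * Y = Y * un B j i := (loc_lift B _).comm hY fun _ h => not_not.2 h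
  simp only [← Matrix.mul_assoc, h1]
  simp only [Matrix.mul_assoc, h2]

/-- splitting of the configurations off `A` -/
def ssa1E {A B : Finset Λ} (h : Disjoint A B) :
    ({x // x ∈ B} → Q) × ({x // x ∉ A ∪ B} → Q) ≃ ({x // x ∉ A} → Q) where
  toFun p x := if hx : x.1 ∈ B then p.1 ⟨x, hx⟩
    else p.2 ⟨x, fun h1 => (Finset.mem_union.1 h1).elim x.2 hx⟩
  invFun c := (fun x => c ⟨x, Finset.disjoint_right.1 h x.2⟩,
    fun x => c ⟨x, fun h1 => x.2 (Finset.mem_union_left _ h1)⟩)
  left_inv p := Prod.ext (funext fun x => dif_pos x.2)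
    (funext fun x => dif_neg fun h1 => x.2 (Finset.mem_union_right _ h1))
  right_inv c := funext fun x => by
    dsimp only
    split_ifs <;> rfl

omit [Fintype Λ] [Fintype Q] [DecidableEq Q] [Nonempty Q] in
theorem ssa1_glue {A B : Finset Λ} (h : Disjoint A B) (j : {x // x ∈ B} → Q)
    (c : {x // x ∉ A ∪ B} → Q) (s : Λ → Q) :
    glue (A ∪ B) (res (A ∪ B) (glue B j (cores B s))) c = glue A (res A s) (ssa1E h (j, c)) := by
  funext x
  by_cases h1 : x ∈ A
  · simp [glue, res, cores, h1, Finset.disjoint_left.1 h h1]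
  · by_cases h2 : x ∈ B <;> simp [glue, res, ssa1E, h1, h2]

omit [Fintype Λ] [Fintype Q] [DecidableEq Q] [Nonempty Q] in
theorem ssa1_cores (A B : Finset Λ) (j : {x // x ∈ B} → Q) (s : Λ → Q) :
    cores (A ∪ B) (glue B j (cores B s)) = cores (A ∪ B) s :=
  funext fun x => dif_neg fun h1 => x.2 (Finset.mem_union_right _ h1)

/-- test both sides: for `K` local on `A` both have `trace (_ * K) = cC A * ip ψ K ψ`, or compute the
entries with `tw_apply` and split the sum over the complement of `A` -/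
theorem tw_mg {A B : Finset Λ} (h : Disjoint A B) (ψ : (Λ → Q) → ℂ) :
    tw B (mg (A ∪ B) ψ) = mg A ψ := by
  ext s t
  simp only [tw_apply, mg, lift, rho, ssa1_cores, ssa1_glue h]
  by_cases h1 : cores A s = cores A t
  · have h2 := (loc_cores_iff A s t).1 h1
    rw [if_pos h1, if_pos ((loc_res_iff B s t).2 fun x hx => h2 x (Finset.disjoint_right.1 h hx)),
      ← (ssa1E h).sum_comp, Fintype.sum_prod_type]
    exact Finset.sum_congr rfl fun j _ => if_pos ((loc_cores_iff _ s t).2 fun x hx =>
      h2 x fun h3 => hx (Finset.mem_union_left _ h3))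
  · rw [if_neg h1]
    split_ifs with h2 h3
    · refine (h1 ((loc_cores_iff A s t).2 fun x hx => ?_)).elim
      by_cases h4 : x ∈ B
      · exact (loc_res_iff B s t).1 h2 x h4
      · exact (loc_cores_iff _ s t).1 h3 x fun h5 => (Finset.mem_union.1 h5).elim hx h4
    · exact Finset.sum_const_zero
    · rfl

theorem tw_rg {A B : Finset Λ} (h : Disjoint A B) (α β : ℝ) (ψ : (Λ → Q) → ℂ) :
    tw B (rg α β (A ∪ B) ψ) = rg ((Fintype.card Q : ℝ) ^ B.card * α) β A ψ := by
  have h1 : tw B (rg α β (A ∪ B) ψ) = (α : ℂ) • tw B 1 + (β : ℂ) • tw B (mg (A ∪ B) ψ) := by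
    simp only [tw, rg, Matrix.mul_add, Matrix.add_mul, Matrix.mul_smul, Matrix.smul_mul,
      Finset.sum_add_distrib, Finset.smul_sum]
  rw [h1, tw_one, tw_mg h, rg, smul_smul, mul_comm]
  push_cast
  rfl

end Vale.Agent.P356H
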