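import Vale.Agent.P356H.Corr

namespace Vale.Agent.P356H

open Vale.Agent.P356 Vale.Agent.P356E

variable {α : Type} [Fintype α] [DecidableEq α] {S : Finset α → ℝ} {A Nr : Finset α}
  {f g : α → ℕ} {L w u p : ℕ} {sw su μu μp : ℝ} {φ : α → ℝ}

theorem StepA.strip (f g : α → ℕ) (Nr : Finset α) (c w y1 y2 : ℕ) (k : ℕ) (hk : 0 < k) :
    ∃ i, i < k ∧ (bx f g (c + i * w) (c + i * w + w) y1 y2 ∩ Nr).card * k ≤
      (bx f g c (c + k * w) y1 y2 ∩ Nr).card := by
  have e : ∀ k, ∑ i ∈ Finset.range k, (bx f g (c + i * w) (c + i * w + w) y1 y2 ∩ Nr).card =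
      (bx f g c (c + k * w) y1 y2 ∩ Nr).card := fun k => by
    induction k with
    | zero =>
      rw [Finset.sum_range_zero, eq_comm, Finset.card_eq_zero]
      refine Finset.eq_empty_of_forall_notMem fun z hz => ?_
      rw [Finset.mem_inter, mem_bx] at hz
      omega
    | succ k ih =>
      rw [Finset.sum_range_succ, ih, ← Finset.card_union_of_disjoint]
      · refine congrArg _ (Finset.ext fun z => ?_)
        simp only [Finset.mem_union, Finset.mem_inter, mem_bx, Nat.succ_mul]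
        constructor
        · rintro (⟨h, h'⟩ | ⟨h, h'⟩) <;> exact ⟨by omega, h'⟩
        · rintro ⟨h, h'⟩
          rcases lt_or_ge (f z) (c + k * w) with a | a
          · exact Or.inl ⟨by omega, h'⟩
          · exact Or.inr ⟨by omega, h'⟩
      · refine Finset.disjoint_left.2 fun z h h' => ?_
        rw [Finset.mem_inter, mem_bx] at h h'
        omega
  obtain ⟨i, hi, hm⟩ := Finset.exists_min_image (Finset.range k)
    (fun i => (bx f g (c + i * w) (c + i * w + w) y1 y2 ∩ Nr).card) ⟨0, Finset.mem_range.2 hk⟩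
  refine ⟨i, Finset.mem_range.1 hi, ?_⟩
  have := Finset.card_nsmul_le_sum _ _ _ hm
  rwa [e, Finset.card_range, smul_eq_mul, mul_comm] at this

theorem step1 (h : Ctx S A f g L w u p sw su μu μp φ Nr) {x1 x2 y1 y2 : ℕ}
    (hA : Adm L x1 x2 y1 y2) (hab : y2 - y1 ≤ x2 - x1) (hp : (x2 - x1) + (y2 - y1) ≤ p)
    (hw : 12 * w ≤ x2 - x1) :
    mm S A (bx f g x1 x2 y1 y2) ≤ ∑ z ∈ bx f g x1 x2 y1 y2, φ z +
      6 * (2 * su + 6 * (u / w : ℝ) * sw) / ((x2 - x1 : ℕ) * u) * (bx f g x1 x2 y1 y2 ∩ Nr).card +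
      (μp + (p / u : ℝ) * (μu + 2 * sw) + (2 * su + 6 * (u / w : ℝ) * sw)) := by
  obtain ⟨a1, a2, a3, a4, a5, a6⟩ := hA
  have w1 := h.w1
  have wu := h.wu
  obtain ⟨k, hk⟩ : ∃ k, k = (x2 - x1) / (3 * w) := ⟨_, rfl⟩
  have k1 : 3 * (k * w) ≤ x2 - x1 := by
    have := Nat.div_mul_le_self (x2 - x1) (3 * w)
    rw [← hk] at this
    linarith
  have k2 : x2 - x1 < 3 * (k * w) + 3 * w := by
    have := Nat.lt_mul_div_succ (x2 - x1) (show 0 < 3 * w by omega)
    rw [← hk] at this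
    linarith
  have k0 : 0 < k := Nat.pos_of_ne_zero fun e => by
    rw [e] at k2
    omega
  have k3 : w ≤ k * w := Nat.le_mul_of_pos_left w k0
  obtain ⟨i, hi, hc⟩ := StepA.strip f g Nr (x1 + (x2 - x1) / 3) w y1 y2 k k0
  have k4 : i * w + w ≤ k * w := by
    rw [← Nat.succ_mul]
    exact Nat.mul_le_mul_right w hi
  obtain ⟨c, hcd⟩ : ∃ c, c = x1 + (x2 - x1) / 3 + i * w := ⟨_, rfl⟩
  rw [← hcd] at hc
  have hc' : (bx f g c (c + w) y1 y2 ∩ Nr).card * k ≤ (bx f g x1 x2 y1 y2 ∩ Nr).card :=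
    hc.trans (Finset.card_le_card fun z hz => by
      rw [Finset.mem_inter, mem_bx] at hz ⊢
      exact ⟨by omega, hz.2⟩)
  have c1 := corr h (x1 := x1) (x2 := x2) (y1 := y1) (y2 := y2) (c := c) (by omega) (by omega) a2
    (by omega) a4
  have c2 := mm_sep h.ss A (P := bx f g x1 c y1 y2) (T := bx f g (c + w) x2 y1 y2)
    (Y := bx f g (x1 - w) (c + w) (y1 - w) (y2 + w)) (fun z hz => by
      rw [mem_bx] at hz ⊢
      omega) (Finset.disjoint_left.2 fun z hz hz' => by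
      rw [mem_bx] at hz hz'
      omega)
  have c3 := h.hmp x1 c y1 y2 (by omega) (by omega)
  have c4 := h.ih x1 c y1 y2 ⟨by omega, by omega, a3, a4, by omega, by omega⟩ (by omega)
  have c5 := h.ih (c + w) x2 y1 y2 ⟨by omega, a2, a3, a4, by omega, by omega⟩ (by omega)
  have c6 : ∑ z ∈ bx f g x1 x2 y1 y2, φ z = ∑ z ∈ bx f g x1 c y1 y2, φ z +
      ∑ z ∈ bx f g c (c + w) y1 y2, φ z + ∑ z ∈ bx f g (c + w) x2 y1 y2, φ z := by
    rw [← Finset.sum_union, ← Finset.sum_union]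
    · refine Finset.sum_congr (Finset.ext fun z => ?_) fun _ _ => rfl
      simp only [Finset.mem_union, mem_bx]
      omega
    · refine Finset.disjoint_left.2 fun z hz hz' => ?_
      simp only [Finset.mem_union, mem_bx] at hz hz'
      omega
    · refine Finset.disjoint_left.2 fun z hz hz' => ?_
      rw [mem_bx] at hz hz'
      omega
  have w0 : (0 : ℝ) < w := by exact_mod_cast w1
  have u0 : (0 : ℝ) < u := by exact_mod_cast w1.trans wu
  have sw0 := h.sw0
  have su0 := h.su0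
  have mu0 := h.mu0
  have c7 : ((y2 - y1 : ℕ) / u : ℝ) * (μu + 2 * sw) ≤ (p / u : ℝ) * (μu + 2 * sw) := by
    have : ((y2 - y1 : ℕ) : ℝ) ≤ p := by exact_mod_cast (show y2 - y1 ≤ p by omega)
    gcongr
  have cb : 0 ≤ 2 * su + 6 * (u / w : ℝ) * sw := by positivity
  generalize 2 * su + 6 * (u / w : ℝ) * sw = B at c1 cb ⊢
  have x0 : (0 : ℝ) < (x2 - x1 : ℕ) := by exact_mod_cast (show 0 < x2 - x1 by omega)
  have c8 : B / (w * u) * (bx f g c (c + w) y1 y2 ∩ Nr).card ≤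
      6 * B / ((x2 - x1 : ℕ) * u) * (bx f g x1 x2 y1 y2 ∩ Nr).card := by
    have b1 : (bx f g c (c + w) y1 y2 ∩ Nr).card * (x2 - x1) ≤
        6 * w * (bx f g x1 x2 y1 y2 ∩ Nr).card :=
      (Nat.mul_le_mul_left _ (show x2 - x1 ≤ 6 * (k * w) by omega)).trans (by
        have := Nat.mul_le_mul_left (6 * w) hc'
        linarith)
    have b2 : ((bx f g c (c + w) y1 y2 ∩ Nr).card : ℝ) * (x2 - x1 : ℕ) ≤
        6 * w * (bx f g x1 x2 y1 y2 ∩ Nr).card := by exact_mod_cast b1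
    rw [div_mul_eq_mul_div, div_mul_eq_mul_div, div_le_div_iff₀ (by positivity) (by positivity)]
    have := mul_le_mul_of_nonneg_left b2 (mul_nonneg cb u0.le)
    linarith
  linarith

theorem step2 (h : Ctx S A f g L w u p sw su μu μp φ Nr) {x1 x2 y1 y2 : ℕ}
    (hA : Adm L x1 x2 y1 y2) (hp : (x2 - x1) + (y2 - y1) = p) (hw : 24 * w ≤ p) :
    mm S A (bx f g x1 x2 y1 y2) ≤ ∑ z ∈ bx f g x1 x2 y1 y2, φ z +
      12 * (2 * su + 6 * (u / w : ℝ) * sw) / (p * u) * (bx f g x1 x2 y1 y2 ∩ Nr).card +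
      (μp + (p / u : ℝ) * (μu + 2 * sw) + (2 * su + 6 * (u / w : ℝ) * sw)) := by
  have w1 := h.w1
  have u0 : (0 : ℝ) < u := by exact_mod_cast w1.trans h.wu
  have sw0 := h.sw0
  have su0 := h.su0
  have cb : 0 ≤ 2 * su + 6 * (u / w : ℝ) * sw := by positivity
  have key : ∀ a n : ℕ, p ≤ 2 * a → 6 * (2 * su + 6 * (u / w : ℝ) * sw) / (a * u) * n ≤
      12 * (2 * su + 6 * (u / w : ℝ) * sw) / (p * u) * n := fun a n ha => by
    have p0 : (0 : ℝ) < p := by exact_mod_cast (show 0 < p by omega)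
    have a0 : (0 : ℝ) < a := by exact_mod_cast (show 0 < a by omega)
    have a1 : (p : ℝ) ≤ 2 * a := by exact_mod_cast ha
    refine mul_le_mul_of_nonneg_right ?_ (Nat.cast_nonneg _)
    rw [div_le_div_iff₀ (by positivity) (by positivity)]
    have := mul_le_mul_of_nonneg_left a1 (mul_nonneg cb u0.le)
    linarith
  rcases le_total (y2 - y1) (x2 - x1) with hab | hab
  · linarith [step1 h hA hab hp.le (by omega), key (x2 - x1) (bx f g x1 x2 y1 y2 ∩ Nr).card (by omega)]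
  · obtain ⟨a1, a2, a3, a4, a5, a6⟩ := hA
    have := step1 h.swap ⟨a3, a4, a1, a2, a6, a5⟩ hab (by omega) (by omega)
    rw [bx_swap] at this
    linarith [key (y2 - y1) (bx f g x1 x2 y1 y2 ∩ Nr).card (by omega)]

end Vale.Agent.P356H
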