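import Vale.Agent.P356H.Step

namespace Vale.Agent.P356H

open Vale.Agent.P356 Vale.Agent.P356E

theorem stepn_pow {P : ℝ} (hP : 0 ≤ P) (k : ℕ) {r : ℝ} (hr : r = k / 128) :
    P ^ r = (P ^ (1 / 128 : ℝ)) ^ k := by
  rw [← Real.rpow_natCast, ← Real.rpow_mul hP, hr]
  congr 1
  ring

theorem stepn_65 {x y : ℝ} (hx : 0 < x) (hxy : x ≤ y) :
    x ^ (65 / 64 : ℝ) ≤ x * y ^ (1 / 64 : ℝ) := by
  rw [show (65 / 64 : ℝ) = 1 + 1 / 64 by norm_num, Real.rpow_add hx, Real.rpow_one]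
  exact mul_le_mul_of_nonneg_left (Real.rpow_le_rpow hx.le hxy (by norm_num)) hx.le

theorem stepn_15 {x y : ℝ} (hy : 0 < y) (hxy : y ≤ x) :
    x ^ (15 / 16 : ℝ) * y ^ (1 / 16 : ℝ) ≤ x := by
  have hx : 0 < x := hy.trans_le hxy
  have h := mul_le_mul_of_nonneg_left (Real.rpow_le_rpow hy.le hxy (by norm_num : (0 : ℝ) ≤ 1 / 16))
    (Real.rpow_nonneg hx.le (15 / 16 : ℝ))
  rw [← Real.rpow_add hx, show (15 / 16 + 1 / 16 : ℝ) = 1 by norm_num, Real.rpow_one] at h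
  exact h

theorem stepn_alg {t C w u W U V cb : ℝ} (ht : 1 ≤ t) (hC : 1 ≤ C) (hw0 : 0 < w)
    (hw : w ≤ 2 * C * t ^ 96) (hu1 : t ^ 112 ≤ u) (hu2 : u ≤ 2 * t ^ 112) (hW : W ≤ w * t ^ 2)
    (hU : U ≤ 3 * u * t ^ 2) (hV : V * t ^ 7 ≤ u)
    (hcb : cb = 2 * (C * U) + 6 * (u / w) * (C * W)) :
    12 * cb / (t ^ 128 * u) ≤ (800 * C + 64 * C ^ 2) * (t ^ 120)⁻¹ ∧
      C * t ^ 120 + (t ^ 128 / u) * (C * V + 2 * (C * W)) + cb ≤
        (800 * C + 64 * C ^ 2) * (t ^ 132)⁻¹ * ((t ^ 128) ^ 2 / 16) := by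
  have t0 : 0 < t := by linarith
  have C0 : 0 < C := by linarith
  have u0 : 0 < u := (pow_pos t0 _).trans_le hu1
  have hp : ∀ a b : ℕ, a ≤ b → t ^ a ≤ t ^ b := fun a b h => pow_le_pow_right₀ ht h
  have c1 : cb ≤ 12 * C * (u * t ^ 2) := by
    have a1 : C * U ≤ C * (3 * u * t ^ 2) := mul_le_mul_of_nonneg_left hU C0.le
    have a2 : (u / w) * (C * W) ≤ (u / w) * (C * (w * t ^ 2)) :=
      mul_le_mul_of_nonneg_left (mul_le_mul_of_nonneg_left hW C0.le) (by positivity)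
    have a3 : (u / w) * (C * (w * t ^ 2)) = C * (u * t ^ 2) := by field_simp
    rw [hcb]
    linarith
  constructor
  · rw [div_le_iff₀ (by positivity)]
    have e : (800 * C + 64 * C ^ 2) * (t ^ 120)⁻¹ * (t ^ 128 * u) =
        (800 * C + 64 * C ^ 2) * (u * t ^ 8) := by field_simp
    have a1 : C * (u * t ^ 2) ≤ C * (u * t ^ 8) :=
      mul_le_mul_of_nonneg_left (mul_le_mul_of_nonneg_left (hp 2 8 (by norm_num)) u0.le) C0.le
    have a2 : 0 ≤ C ^ 2 * (u * t ^ 8) := by positivity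
    have a3 : 0 ≤ C * (u * t ^ 8) := by positivity
    rw [e]
    linarith
  · have e : (800 * C + 64 * C ^ 2) * (t ^ 132)⁻¹ * ((t ^ 128) ^ 2 / 16) =
        50 * (C * t ^ 124) + 4 * (C ^ 2 * t ^ 124) := by
      field_simp
      ring
    have a1 : C * t ^ 120 ≤ C * t ^ 124 := mul_le_mul_of_nonneg_left (hp _ _ (by norm_num)) C0.le
    have a2 : t ^ 128 / u * V ≤ t ^ 124 := by
      rw [div_mul_eq_mul_div, div_le_iff₀ u0]
      calc t ^ 128 * V = t ^ 121 * (V * t ^ 7) := by ring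
        _ ≤ t ^ 121 * u := mul_le_mul_of_nonneg_left hV (by positivity)
        _ ≤ t ^ 124 * u := mul_le_mul_of_nonneg_right (hp _ _ (by norm_num)) u0.le
    have a3 : t ^ 128 / u * W ≤ 2 * C * t ^ 124 := by
      rw [div_mul_eq_mul_div, div_le_iff₀ u0]
      calc t ^ 128 * W ≤ t ^ 128 * (w * t ^ 2) := mul_le_mul_of_nonneg_left hW (by positivity)
        _ ≤ t ^ 128 * (2 * C * t ^ 96 * t ^ 2) := by gcongr
        _ = 2 * C * t ^ 114 * t ^ 112 := by ring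
        _ ≤ 2 * C * t ^ 124 * u := by gcongr; norm_num
    have a4 : u * t ^ 2 ≤ 2 * t ^ 124 := by
      calc u * t ^ 2 ≤ 2 * t ^ 112 * t ^ 2 := by gcongr
        _ = 2 * t ^ 114 := by ring
        _ ≤ 2 * t ^ 124 := by gcongr; norm_num
    have b2 := mul_le_mul_of_nonneg_left a2 C0.le
    have b3 := mul_le_mul_of_nonneg_left a3 C0.le
    have b4 := mul_le_mul_of_nonneg_left a4 C0.le
    have b5 : 0 ≤ C * t ^ 124 := by positivity
    rw [e]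
    nlinarith

/-- pure analysis: `w = ⌈C p ^ (3/4)⌉₊`, `u = ⌈p ^ (7/8)⌉₊`; for large `p` -/
theorem nums {C : ℝ} (hC : 1 ≤ C) : ∃ (D : ℝ) (p0 : ℕ), 1 ≤ D ∧ 1 ≤ p0 ∧ ∀ p : ℕ, p0 ≤ p →
    ∃ w u : ℕ, 1 ≤ w ∧ w ≤ u ∧ u ≤ p ∧ 24 * w ≤ p ∧ C * (p : ℝ) ^ (3 / 4 : ℝ) ≤ w ∧
      ((3 * u : ℕ) : ℝ) ≤ D * (p : ℝ) ^ (7 / 8 : ℝ) ∧
      ∀ cb : ℝ, cb = 2 * (C * ((3 * u : ℕ) : ℝ) ^ (65 / 64 : ℝ)) +
          6 * (u / w : ℝ) * (C * (w : ℝ) ^ (65 / 64 : ℝ)) →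
        12 * cb / (p * u) ≤ D * (p : ℝ) ^ (-(15 / 16) : ℝ) ∧
        C * (p : ℝ) ^ (15 / 16 : ℝ) + (p / u : ℝ) * (C * (u : ℝ) ^ (15 / 16 : ℝ) +
          2 * (C * (w : ℝ) ^ (65 / 64 : ℝ))) + cb ≤
          D * (p : ℝ) ^ (-(33 / 32) : ℝ) * ((p : ℝ) ^ 2 / 16) := by
  refine ⟨800 * C + 64 * C ^ 2, ⌈(48 * C) ^ 8⌉₊ + 1, by nlinarith, by omega, fun p hp => ?_⟩
  have p1 : (1 : ℝ) ≤ p := by exact_mod_cast (by omega : 1 ≤ p)
  have p0 : (0 : ℝ) ≤ p := by linarith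
  have pC : (48 * C) ^ 8 ≤ (p : ℝ) := (Nat.le_ceil _).trans (by exact_mod_cast (by omega))
  obtain ⟨t, ht⟩ : ∃ t : ℝ, t = (p : ℝ) ^ (1 / 128 : ℝ) := ⟨_, rfl⟩
  have t1 : 1 ≤ t := ht ▸ Real.one_le_rpow p1 (by norm_num)
  have t0 : 0 < t := by linarith
  have hq : ∀ (k : ℕ) {r : ℝ}, r = k / 128 → (p : ℝ) ^ r = t ^ k := fun k r hr =>
    ht ▸ stepn_pow p0 k hr
  have e128 : (p : ℝ) = t ^ 128 := by rw [← hq 128 (r := 1) (by norm_num), Real.rpow_one]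
  have e96 := hq 96 (r := 3 / 4) (by norm_num)
  have e112 := hq 112 (r := 7 / 8) (by norm_num)
  have e120 := hq 120 (r := 15 / 16) (by norm_num)
  have e132 := hq 132 (r := 33 / 32) (by norm_num)
  have e2 := hq 2 (r := 1 / 64) (by norm_num)
  have e7 : (t ^ 112) ^ (1 / 16 : ℝ) = t ^ 7 := by
    rw [← e112, ← Real.rpow_mul p0]
    exact hq 7 (by norm_num)
  have tC : 48 * C ≤ t ^ 16 := by
    refine le_of_pow_le_pow_left₀ (n := 8) (by norm_num) (by positivity) ?_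
    rw [← pow_mul]
    exact pC.trans e128.le
  have o96 : 1 ≤ t ^ 96 := one_le_pow₀ t1
  have o112 : 1 ≤ t ^ 112 := one_le_pow₀ t1
  have s112 : t ^ 112 = t ^ 16 * t ^ 96 := by ring
  have s128 : t ^ 128 = t ^ 16 * t ^ 112 := by ring
  have m1 : 48 * C * t ^ 96 ≤ t ^ 112 :=
    (mul_le_mul_of_nonneg_right tC (by positivity)).trans s112.ge
  have m2 : 48 * C * t ^ 112 ≤ t ^ 128 :=
    (mul_le_mul_of_nonneg_right tC (by positivity)).trans s128.ge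
  have m3 : t ^ 96 ≤ C * t ^ 96 := le_mul_of_one_le_left (by positivity) hC
  have m4 : t ^ 112 ≤ C * t ^ 112 := le_mul_of_one_le_left (by positivity) hC
  obtain ⟨w, hw⟩ : ∃ w : ℕ, w = ⌈C * t ^ 96⌉₊ := ⟨_, rfl⟩
  obtain ⟨u, hu⟩ : ∃ u : ℕ, u = ⌈t ^ 112⌉₊ := ⟨_, rfl⟩
  have w1 : C * t ^ 96 ≤ w := hw ▸ Nat.le_ceil _
  have w2 : (w : ℝ) < C * t ^ 96 + 1 := hw ▸ Nat.ceil_lt_add_one (by positivity)
  have u1 : t ^ 112 ≤ u := hu ▸ Nat.le_ceil _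
  have u2 : (u : ℝ) < t ^ 112 + 1 := hu ▸ Nat.ceil_lt_add_one (by positivity)
  have w0 : (0 : ℝ) < w := by linarith
  have u0 : (0 : ℝ) < u := by linarith
  have h3 : ((3 * u : ℕ) : ℝ) = 3 * u := by push_cast; rfl
  refine ⟨w, u, ?_, ?_, ?_, ?_, ?_, ?_, fun cb hcb => ?_⟩
  · exact_mod_cast (by exact_mod_cast w0 : 0 < w)
  · exact_mod_cast (by linarith : (w : ℝ) ≤ u)
  · exact_mod_cast (by linarith : (u : ℝ) ≤ p)
  · exact_mod_cast (by linarith : (24 * w : ℝ) ≤ p)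
  · rwa [e96]
  · rw [h3, e112]
    have : 0 ≤ C ^ 2 * t ^ 112 := by positivity
    linarith
  · have hW := stepn_65 w0 (by linarith : (w : ℝ) ≤ p)
    have hU := stepn_65 (by linarith : (0 : ℝ) < 3 * u) (by linarith : (3 * u : ℝ) ≤ p)
    have hV := stepn_15 (by positivity : 0 < t ^ 112) u1
    rw [e2] at hW hU
    rw [e7] at hV
    rw [h3] at hcb
    rw [Real.rpow_neg p0, Real.rpow_neg p0, e120, e132]
    have := stepn_alg t1 hC w0 (by linarith) u1 (by linarith) hW hU hV hcb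
    rwa [← e128] at this

/-- If the box has one colour use `mm_mono`. Otherwise it lies in `nearB A p` (`box_near`) and has
at least `p ^ 2 / 16` sites (`box_card`, aspect ratio: `4 p ^ 2 ≤ 25 a b`); build `Ctx` with
`bx_box`, `Nr = nearB A (3 u)`, and apply `step2`, `nums`. -/
theorem stepG {C : ℝ} (hC : 1 ≤ C) : ∃ (D : ℝ) (p0 : ℕ), 1 ≤ D ∧ 1 ≤ p0 ∧ ∀ (L : ℕ)
    (S : Finset (St L) → ℝ) (A : Finset (St L)), SS S → HB L S C → HM L S C →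
    StepG L (mm S A) (nearB A) D p0 := by
  obtain ⟨D, p0, hD, hp0, H⟩ := nums hC
  refine ⟨D, p0, hD, hp0, fun L S A hS hB hM x1 x2 y1 y2 p φ hA hp hpp hφ ih => ?_⟩
  obtain ⟨w, u, w1, wu, up, wp, wC, uD, Hc⟩ := H p hpp
  obtain ⟨c1, c2⟩ := Hc _ rfl
  have C0 : 0 ≤ C := by linarith
  have D0 : 0 ≤ D := by linarith
  refine ⟨3 * u, by omega, uD, ?_⟩
  have n1 : 0 ≤ ∑ z ∈ box L x1 x2 y1 y2, φ z := Finset.sum_nonneg fun z _ => hφ z
  by_cases hm : Mono A (box L x1 x2 y1 y2)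
  · rw [mm_mono hS hm]
    positivity
  have hN : box L x1 x2 y1 y2 ⊆ nearB A p := by
    obtain ⟨a1, -, a3, -⟩ := hA
    exact box_near A (by omega) (by omega) hm
  have hcard : (p : ℝ) ^ 2 / 16 ≤ (box L x1 x2 y1 y2 ∩ nearB A p).card := by
    obtain ⟨-, a2, -, a4, a5, a6⟩ := hA
    rw [Finset.inter_eq_left.2 hN, box_card L _ _ _ _ a2 a4, ← hp]
    generalize x2 - x1 = a at a5 a6 ⊢
    generalize y2 - y1 = b at a5 a6 ⊢
    have b5 : (a : ℝ) ≤ 4 * b := by exact_mod_cast a5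
    have b6 : (b : ℝ) ≤ 4 * a := by exact_mod_cast a6
    have b7 : (0 : ℝ) ≤ a * b := by positivity
    push_cast
    nlinarith [mul_nonneg (sub_nonneg.2 b5) (sub_nonneg.2 b6)]
  have up' : (u : ℝ) ^ (3 / 4 : ℝ) ≤ (p : ℝ) ^ (3 / 4 : ℝ) :=
    Real.rpow_le_rpow (by positivity) (by exact_mod_cast up) (by norm_num)
  have hx : Ctx S A (fun z : St L => z.1.val) (fun z => z.2.val) L w u p
      (C * (w : ℝ) ^ (65 / 64 : ℝ)) (C * ((3 * u : ℕ) : ℝ) ^ (65 / 64 : ℝ))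
      (C * (u : ℝ) ^ (15 / 16 : ℝ)) (C * (p : ℝ) ^ (15 / 16 : ℝ)) φ (nearB A (3 * u)) :=
    { ss := hS
      w1 := w1
      wu := wu
      wp := by omega
      sw0 := by positivity
      su0 := by positivity
      mu0 := by positivity
      phi0 := hφ
      card := fun a1 a2 b1 b2 h1 h2 => box_card L a1 a2 b1 b2 h1 h2
      hsw := fun a1 a2 b1 b2 h1 h2 => hB w a1 a2 b1 b2 w1 h1 h2
      hsu := fun a1 a2 b1 b2 h1 h2 => hB (3 * u) a1 a2 b1 b2 (by omega) h1 h2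
      hmu := fun a1 a2 b1 b2 h1 h2 => hM u w a1 a2 b1 b2 (by omega)
        ((mul_le_mul_of_nonneg_left up' C0).trans wC) h1 h2
      hmp := fun a1 a2 b1 b2 h1 h2 => hM p w a1 a2 b1 b2 (by omega) wC h1 h2
      nr := fun a1 a2 b1 b2 h1 h2 h3 => box_near A h1 h2 h3
      ih := ih }
  have key := step2 hx hA hp wp
  rw [bx_box] at key
  have d1 := mul_le_mul_of_nonneg_right c1
    (Nat.cast_nonneg (α := ℝ) (box L x1 x2 y1 y2 ∩ nearB A (3 * u)).card)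
  have d2 := mul_le_mul_of_nonneg_left hcard
    (by positivity : 0 ≤ D * (p : ℝ) ^ (-(33 / 32) : ℝ))
  linarith

end Vale.Agent.P356H
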