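import Vale.Agent.P356H.Sub

namespace Vale.Agent.P356H

open Vale.Agent.P356 Vale.Agent.P356E

variable {α : Type} [Fintype α] [DecidableEq α] {S : Finset α → ℝ} {A Nr : Finset α}
  {f g : α → ℕ} {L w u p : ℕ} {sw su μu μp : ℝ} {φ : α → ℝ}

/-- `bx_swap` -/
theorem Ctx.swap (h : Ctx S A f g L w u p sw su μu μp φ Nr) :
    Ctx S A g f L w u p sw su μu μp φ Nr := by
  refine ⟨h.ss, h.w1, h.wu, h.wp, h.sw0, h.su0, h.mu0, h.phi0, ?_, ?_, ?_, ?_, ?_, ?_, ?_⟩
  · intro x1 x2 y1 y2 hx hy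
    rw [bx_swap, h.card _ _ _ _ hy hx, mul_comm]
  · intro x1 x2 y1 y2 hx hy
    rw [bx_swap]
    exact h.hsw _ _ _ _ hy hx
  · intro x1 x2 y1 y2 hx hy
    rw [bx_swap]
    exact h.hsu _ _ _ _ hy hx
  · intro x1 x2 y1 y2 hx hy
    rw [bx_swap f g y1 y2 x1 x2, bx_swap f g (y1 - w) (y2 + w) (x1 - w) (x2 + w)]
    exact h.hmu _ _ _ _ hy hx
  · intro x1 x2 y1 y2 hx hy
    rw [bx_swap f g y1 y2 x1 x2, bx_swap f g (y1 - w) (y2 + w) (x1 - w) (x2 + w)]
    exact h.hmp _ _ _ _ hy hx
  · intro x1 x2 y1 y2 hx hy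
    rw [bx_swap]
    exact h.nr _ _ _ _ hy hx
  · intro x1 x2 y1 y2 ha hp
    rw [bx_swap]
    refine h.ih _ _ _ _ ?_ (by omega)
    unfold Adm at ha ⊢
    omega

/-- a `w × w` cell -/
theorem thin_cell (h : Ctx S A f g L w u p sw su μu μp φ Nr) {c y : ℕ} (hc : c + w ≤ L)
    (hy : y + w ≤ L) {Q : Finset α} (hQ : bx f g c (c + w) y (y + w) ⊆ Q) :
    mm S A Q ≤ mm S A (Q \ bx f g c (c + w) y (y + w)) +
      ∑ z ∈ bx f g c (c + w) y (y + w), φ z + 2 * sw := by
  have a1 := mm_child h.ss A hQ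
  have a2 := h.hsw c (c + w) y (y + w) le_rfl le_rfl
  have hp := h.wp
  have a3 := h.ih c (c + w) y (y + w) (by unfold Adm; omega) (by omega)
  linarith

/-- strong induction on the height: if it is below `2 w` use `h.ih`; otherwise remove the bottom
`w × w` cell with `mm_child` -/
theorem thin (h : Ctx S A f g L w u p sw su μu μp φ Nr) {c : ℕ} (hc : c + w ≤ L) (k : ℕ) :
    ∀ y1 y2 : ℕ, y2 = y1 + k → w ≤ k → y2 ≤ L →
      mm S A (bx f g c (c + w) y1 y2) ≤ ∑ z ∈ bx f g c (c + w) y1 y2, φ z + 2 * (k / w : ℝ) * sw := by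
  induction k using Nat.strong_induction_on with
  | _ k ih =>
    intro y1 y2 hy hk hL
    have hw1 := h.w1
    have hp := h.wp
    have hsw := h.sw0
    have hw0 : (0 : ℝ) < w := by exact_mod_cast hw1
    by_cases hk2 : k < 2 * w
    · have a1 := h.ih c (c + w) y1 y2 (by unfold Adm; omega) (by omega)
      have a2 : 0 ≤ 2 * (k / w : ℝ) * sw := by positivity
      linarith
    · have hT : bx f g c (c + w) y1 (y1 + w) ⊆ bx f g c (c + w) y1 y2 := by
        intro z hz
        rw [mem_bx] at hz ⊢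
        omega
      have e1 : bx f g c (c + w) y1 y2 \ bx f g c (c + w) y1 (y1 + w) =
          bx f g c (c + w) (y1 + w) y2 := by
        ext z
        simp only [mem_bx, Finset.mem_sdiff]
        omega
      have a1 := thin_cell h hc (by omega) hT
      have a2 := ih (k - w) (by omega) (y1 + w) y2 (by omega) (by omega) hL
      have a3 := Finset.sum_sdiff (f := φ) hT
      rw [e1] at a1 a3
      have e2 : ((k - w : ℕ) : ℝ) / w = k / w - 1 := by
        rw [Nat.cast_sub hk]
        field_simp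
      rw [e2] at a2
      linarith

/-- One block of the corridor `[c, c + w)`: rows `[y, y + w)` are the spacer, rows
`[y + w, y + w + u)` the segment `D`, `N` its collar of width `w`, `N ⊆ R`. If `Mono A N` remove `D`
by `mm_remove`, `h.hmu`. Otherwise `D ⊆ N ⊆ Nr` (`h.nr`), `D.card = w * u`, remove `D` by `mm_child`,
`thin`, `h.hsu`. Then remove the spacer by `mm_child`, `h.ih`, `h.hsw`. -/
theorem block (h : Ctx S A f g L w u p sw su μu μp φ Nr) {c y : ℕ} (hc : c + w ≤ L)
    (hy : y + w + u ≤ L) {R : Finset α}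
    (hR : bx f g (c - w) (c + w + w) y (y + w + u + w) ⊆ R) :
    mm S A R ≤ mm S A (R \ bx f g c (c + w) y (y + w + u)) +
      ∑ z ∈ bx f g c (c + w) y (y + w + u), φ z +
      (2 * su + 6 * (u / w : ℝ) * sw) / (w * u) * (bx f g c (c + w) y (y + w + u) ∩ Nr).card +
      (μu + 2 * sw) := by
  have hw1 := h.w1
  have hwu := h.wu
  have hsw := h.sw0
  have hsu := h.su0
  have hmu := h.mu0
  have hw0 : (0 : ℝ) < w := by exact_mod_cast hw1
  have hu0 : (0 : ℝ) < u := by exact_mod_cast (hw1.trans hwu)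
  have hDN : bx f g c (c + w) (y + w) (y + w + u) ⊆
      bx f g (c - w) (c + w + w) y (y + w + u + w) := by
    intro z hz
    rw [mem_bx] at hz ⊢
    omega
  have hSp : bx f g c (c + w) y (y + w) ⊆ R \ bx f g c (c + w) (y + w) (y + w + u) := by
    intro z hz
    rw [Finset.mem_sdiff]
    refine ⟨hR ?_, ?_⟩
    · rw [mem_bx] at hz ⊢
      omega
    · rw [mem_bx] at hz ⊢
      omega
  have e1 : (R \ bx f g c (c + w) (y + w) (y + w + u)) \ bx f g c (c + w) y (y + w) =
      R \ bx f g c (c + w) y (y + w + u) := by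
    ext z
    simp only [mem_bx, Finset.mem_sdiff]
    constructor
    · rintro ⟨⟨h1, h2⟩, h3⟩
      exact ⟨h1, by omega⟩
    · rintro ⟨h1, h2⟩
      exact ⟨⟨h1, by omega⟩, by omega⟩
  have hT : bx f g c (c + w) y (y + w) ⊆ bx f g c (c + w) y (y + w + u) := by
    intro z hz
    rw [mem_bx] at hz ⊢
    omega
  have e2 : bx f g c (c + w) y (y + w + u) \ bx f g c (c + w) y (y + w) =
      bx f g c (c + w) (y + w) (y + w + u) := by
    ext z
    simp only [mem_bx, Finset.mem_sdiff]
    omega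
  have a1 := thin_cell h hc (by omega) hSp
  have a2 := Finset.sum_sdiff (f := φ) hT
  rw [e1] at a1
  rw [e2] at a2
  have a3 : 0 ≤ ∑ z ∈ bx f g c (c + w) (y + w) (y + w + u), φ z :=
    Finset.sum_nonneg fun z _ => h.phi0 z
  have hq : 0 ≤ (u / w : ℝ) * sw := by positivity
  by_cases hm : Mono A (bx f g (c - w) (c + w + w) y (y + w + u + w))
  · have b1 := mm_remove h.ss hDN hR hm
    have b2 := h.hmu c (c + w) (y + w) (y + w + u) (by omega) le_rfl
    rw [Nat.add_sub_cancel] at b2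
    have b3 : 0 ≤ (2 * su + 6 * (u / w : ℝ) * sw) / (w * u) *
        (bx f g c (c + w) y (y + w + u) ∩ Nr).card := by positivity
    linarith
  · have b0 := h.nr _ _ _ _ (by omega) (by omega) hm
    have b1 := mm_child h.ss A (hDN.trans hR)
    have b2 := thin h hc u (y + w) (y + w + u) rfl hwu hy
    have b3 := h.hsu c (c + w) (y + w) (y + w + u) (by omega) (by omega)
    have b4 : bx f g c (c + w) (y + w) (y + w + u) ⊆ bx f g c (c + w) y (y + w + u) ∩ Nr := by
      refine Finset.subset_inter ?_ (hDN.trans b0)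
      intro z hz
      rw [mem_bx] at hz ⊢
      omega
    have b5 := Finset.card_le_card b4
    rw [h.card _ _ _ _ hc hy, Nat.add_sub_cancel_left, Nat.add_sub_cancel_left] at b5
    have b6 : (w * u : ℝ) ≤ (bx f g c (c + w) y (y + w + u) ∩ Nr).card := by exact_mod_cast b5
    have b7 : (2 * su + 6 * (u / w : ℝ) * sw) / (w * u) * (w * u) ≤
        (2 * su + 6 * (u / w : ℝ) * sw) / (w * u) *
          (bx f g c (c + w) y (y + w + u) ∩ Nr).card :=
      mul_le_mul_of_nonneg_left b6 (by positivity)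
    rw [div_mul_cancel₀ _ (by positivity)] at b7
    linarith

end Vale.Agent.P356H
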